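import Vale.Agent.P267.H399.Defs

/-! P267 / H399: Wirtinger calculus on `C2`. -/

set_option linter.unusedVariables false
set_option linter.unusedSectionVars false

open scoped Manifold ContDiff ComplexConjugate Matrix ComplexOrder
open MeasureTheory Set Filter Topology

noncomputable section

namespace Vale.Agent.P267.FL

variable {V : Type*} [NormedAddCommGroup V] [NormedSpace ℂ V]
variable {W : Type*} [NormedAddCommGroup W] [NormedSpace ℂ W]

theorem single_I (j : Fin 2) :
    (Pi.single j Complex.I : C2) = Complex.I • (Pi.single j (1 : ℂ) : C2) := by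
  ext k
  by_cases h : k = j
  · subst h; simp
  · simp [Pi.single_eq_of_ne h]

theorem c2_decomp (v : C2) :
    v = v 0 • (Pi.single 0 (1 : ℂ) : C2) + v 1 • (Pi.single 1 (1 : ℂ) : C2) := by
  ext k
  fin_cases k <;> simp

/-- a real linear map on `ℂ²` in terms of its Wirtinger components -/
theorem rlin_eq (L : C2 →L[ℝ] V) (v : C2) :
    L v = ∑ i, (v i • ((1 / 2 : ℂ) • (L (Pi.single i 1) - Complex.I • L (Pi.single i Complex.I))) +
      conj (v i) • ((1 / 2 : ℂ) • (L (Pi.single i 1) + Complex.I • L (Pi.single i Complex.I)))) := by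
  have h1 : ∀ (i : Fin 2) (c : ℂ), L (c • (Pi.single i (1 : ℂ) : C2)) =
      (c.re : ℂ) • L (Pi.single i 1) + (c.im : ℂ) • L (Pi.single i Complex.I) := by
    intro i c
    have : (c • (Pi.single i (1 : ℂ) : C2)) =
        c.re • (Pi.single i (1 : ℂ) : C2) + c.im • (Pi.single i Complex.I : C2) := by
      rw [single_I]
      ext k
      simp only [Pi.smul_apply, Pi.add_apply, smul_eq_mul, Complex.real_smul]
      by_cases h : k = i
      · subst h
        simp only [Pi.single_eq_same, mul_one]
        exact (Complex.re_add_im c).symm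
      · simp [Pi.single_eq_of_ne h]
    rw [this, map_add, map_smul, map_smul]
    simp only [Complex.coe_smul]
  conv_lhs => rw [c2_decomp v]
  rw [map_add, h1, h1, Fin.sum_univ_two]
  have key : ∀ (c : ℂ) (a b : V), (c.re : ℂ) • a + (c.im : ℂ) • b =
      c • ((1 / 2 : ℂ) • (a - Complex.I • b)) + conj c • ((1 / 2 : ℂ) • (a + Complex.I • b)) := by
    intro c a b
    have e1 : c = (c.re : ℂ) + (c.im : ℂ) * Complex.I := (Complex.re_add_im c).symm
    have e2 : conj c = (c.re : ℂ) - (c.im : ℂ) * Complex.I := by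
      apply Complex.ext <;> simp
    rw [e2]
    conv_rhs =>
      enter [1, 1]
      rw [e1]
    simp only [smul_add, smul_sub, smul_smul]
    have hI : Complex.I * Complex.I = -1 := Complex.I_mul_I
    match_scalars
    · ring
    · linear_combination (c.im : ℂ) * hI
  rw [key, key]

theorem fderiv_eq_wirt {f : C2 → V} {z : C2} (v : C2) :
    fderiv ℝ f z v = ∑ i, (v i • dz i f z + conj (v i) • dzb i f z) := rlin_eq _ v

/-! ### congruence, linearity -/

theorem dz_congr {f g : C2 → V} {z : C2} (h : f =ᶠ[𝓝 z] g) (j : Fin 2) : dz j f z = dz j g z := by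
  unfold dz
  rw [h.fderiv_eq]

theorem dzb_congr {f g : C2 → V} {z : C2} (h : f =ᶠ[𝓝 z] g) (j : Fin 2) :
    dzb j f z = dzb j g z := by
  unfold dzb
  rw [h.fderiv_eq]

@[simp] theorem dz_const (c : V) (z : C2) (j : Fin 2) : dz j (fun _ => c) z = 0 := by
  simp [dz]

@[simp] theorem dzb_const (c : V) (z : C2) (j : Fin 2) : dzb j (fun _ => c) z = 0 := by
  simp [dzb]

theorem dz_add {f g : C2 → V} {z : C2} (hf : DifferentiableAt ℝ f z) (hg : DifferentiableAt ℝ g z)
    (j : Fin 2) : dz j (fun y => f y + g y) z = dz j f z + dz j g z := by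
  unfold dz
  rw [fderiv_fun_add hf hg]
  simp only [add_apply]
  module

theorem dzb_add {f g : C2 → V} {z : C2} (hf : DifferentiableAt ℝ f z) (hg : DifferentiableAt ℝ g z)
    (j : Fin 2) : dzb j (fun y => f y + g y) z = dzb j f z + dzb j g z := by
  unfold dzb
  rw [fderiv_fun_add hf hg]
  simp only [add_apply]
  module

theorem dz_neg {f : C2 → V} {z : C2} (j : Fin 2) : dz j (fun y => -f y) z = -dz j f z := by
  unfold dz
  rw [fderiv_fun_neg]
  simp only [neg_apply]
  module

theorem dzb_neg {f : C2 → V} {z : C2} (j : Fin 2) : dzb j (fun y => -f y) z = -dzb j f z := by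
  unfold dzb
  rw [fderiv_fun_neg]
  simp only [neg_apply]
  module

theorem dz_sub {f g : C2 → V} {z : C2} (hf : DifferentiableAt ℝ f z) (hg : DifferentiableAt ℝ g z)
    (j : Fin 2) : dz j (fun y => f y - g y) z = dz j f z - dz j g z := by
  have h := dz_add (f := f) (g := fun y => -g y) hf hg.neg j
  rw [dz_neg] at h
  simpa only [sub_eq_add_neg] using h

theorem dzb_sub {f g : C2 → V} {z : C2} (hf : DifferentiableAt ℝ f z) (hg : DifferentiableAt ℝ g z)
    (j : Fin 2) : dzb j (fun y => f y - g y) z = dzb j f z - dzb j g z := by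
  have h := dzb_add (f := f) (g := fun y => -g y) hf hg.neg j
  rw [dzb_neg] at h
  simpa only [sub_eq_add_neg] using h

theorem dz_sum {ι : Type*} (s : Finset ι) {f : ι → C2 → V} {z : C2}
    (hf : ∀ i ∈ s, DifferentiableAt ℝ (f i) z) (j : Fin 2) :
    dz j (fun y => ∑ i ∈ s, f i y) z = ∑ i ∈ s, dz j (f i) z := by
  classical
  induction s using Finset.induction_on with
  | empty => simp
  | insert i s hi ih =>
    simp only [Finset.sum_insert hi]
    rw [dz_add (hf i (by simp)) (DifferentiableAt.fun_sum fun k hk => hf k (by simp [hk])),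
      ih fun k hk => hf k (by simp [hk])]

theorem dzb_sum {ι : Type*} (s : Finset ι) {f : ι → C2 → V} {z : C2}
    (hf : ∀ i ∈ s, DifferentiableAt ℝ (f i) z) (j : Fin 2) :
    dzb j (fun y => ∑ i ∈ s, f i y) z = ∑ i ∈ s, dzb j (f i) z := by
  classical
  induction s using Finset.induction_on with
  | empty => simp
  | insert i s hi ih =>
    simp only [Finset.sum_insert hi]
    rw [dzb_add (hf i (by simp)) (DifferentiableAt.fun_sum fun k hk => hf k (by simp [hk])),
      ih fun k hk => hf k (by simp [hk])]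

/-- Leibniz rule -/
theorem dz_smul {f : C2 → ℂ} {g : C2 → V} {z : C2} (hf : DifferentiableAt ℝ f z)
    (hg : DifferentiableAt ℝ g z) (j : Fin 2) :
    dz j (fun y => f y • g y) z = f z • dz j g z + dz j f z • g z := by
  unfold dz
  rw [fderiv_fun_smul hf hg]
  simp only [add_apply, smul_apply, ContinuousLinearMap.smulRight_apply, smul_eq_mul]
  module

theorem dzb_smul {f : C2 → ℂ} {g : C2 → V} {z : C2} (hf : DifferentiableAt ℝ f z)
    (hg : DifferentiableAt ℝ g z) (j : Fin 2) :
    dzb j (fun y => f y • g y) z = f z • dzb j g z + dzb j f z • g z := by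
  unfold dzb
  rw [fderiv_fun_smul hf hg]
  simp only [add_apply, smul_apply, ContinuousLinearMap.smulRight_apply, smul_eq_mul]
  module

theorem dz_mul {f g : C2 → ℂ} {z : C2} (hf : DifferentiableAt ℝ f z)
    (hg : DifferentiableAt ℝ g z) (j : Fin 2) :
    dz j (fun y => f y * g y) z = f z * dz j g z + dz j f z * g z := dz_smul hf hg j

theorem dzb_mul {f g : C2 → ℂ} {z : C2} (hf : DifferentiableAt ℝ f z)
    (hg : DifferentiableAt ℝ g z) (j : Fin 2) :
    dzb j (fun y => f y * g y) z = f z * dzb j g z + dzb j f z * g z := dzb_smul hf hg j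

/-- complex linear maps commute with the derivatives -/
theorem dz_clm (T : V →L[ℂ] W) {f : C2 → V} {z : C2} (hf : DifferentiableAt ℝ f z) (j : Fin 2) :
    dz j (fun y => T (f y)) z = T (dz j f z) := by
  have h : fderiv ℝ (fun y => T (f y)) z = (T.restrictScalars ℝ).comp (fderiv ℝ f z) :=
    ((T.restrictScalars ℝ).hasFDerivAt.comp z hf.hasFDerivAt).fderiv
  unfold dz
  rw [h]
  simp

theorem dzb_clm (T : V →L[ℂ] W) {f : C2 → V} {z : C2} (hf : DifferentiableAt ℝ f z) (j : Fin 2) :
    dzb j (fun y => T (f y)) z = T (dzb j f z) := by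
  have h : fderiv ℝ (fun y => T (f y)) z = (T.restrictScalars ℝ).comp (fderiv ℝ f z) :=
    ((T.restrictScalars ℝ).hasFDerivAt.comp z hf.hasFDerivAt).fderiv
  unfold dzb
  rw [h]
  simp

theorem dz_const_smul (c : ℂ) {f : C2 → V} {z : C2} (hf : DifferentiableAt ℝ f z) (j : Fin 2) :
    dz j (fun y => c • f y) z = c • dz j f z :=
  dz_clm (c • ContinuousLinearMap.id ℂ V) hf j

theorem dzb_const_smul (c : ℂ) {f : C2 → V} {z : C2} (hf : DifferentiableAt ℝ f z) (j : Fin 2) :
    dzb j (fun y => c • f y) z = c • dzb j f z :=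
  dzb_clm (c • ContinuousLinearMap.id ℂ V) hf j

/-! ### conjugation -/

theorem differentiableAt_conj {f : C2 → ℂ} {z : C2} (hf : DifferentiableAt ℝ f z) :
    DifferentiableAt ℝ (fun y => conj (f y)) z :=
  Complex.conjCLE.differentiableAt.comp z hf

theorem dz_conj {f : C2 → ℂ} {z : C2} (hf : DifferentiableAt ℝ f z) (j : Fin 2) :
    dz j (fun y => conj (f y)) z = conj (dzb j f z) := by
  have h : fderiv ℝ (fun y => conj (f y)) z =
      (Complex.conjCLE : ℂ →L[ℝ] ℂ).comp (fderiv ℝ f z) :=
    ((Complex.conjCLE : ℂ →L[ℝ] ℂ).hasFDerivAt.comp z hf.hasFDerivAt).fderiv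
  unfold dz dzb
  rw [h]
  simp only [ContinuousLinearMap.comp_apply, ContinuousLinearEquiv.coe_coe, Complex.conjCLE_apply,
    smul_eq_mul, map_mul, map_add, map_sub, Complex.conj_I, map_div₀, map_one, map_ofNat]
  ring

theorem dzb_conj {f : C2 → ℂ} {z : C2} (hf : DifferentiableAt ℝ f z) (j : Fin 2) :
    dzb j (fun y => conj (f y)) z = conj (dz j f z) := by
  have h : fderiv ℝ (fun y => conj (f y)) z =
      (Complex.conjCLE : ℂ →L[ℝ] ℂ).comp (fderiv ℝ f z) :=
    ((Complex.conjCLE : ℂ →L[ℝ] ℂ).hasFDerivAt.comp z hf.hasFDerivAt).fderiv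
  unfold dz dzb
  rw [h]
  simp only [ContinuousLinearMap.comp_apply, ContinuousLinearEquiv.coe_coe, Complex.conjCLE_apply,
    smul_eq_mul, map_mul, map_add, map_sub, Complex.conj_I, map_div₀, map_one, map_ofNat]
  ring

/-! ### holomorphic functions -/

theorem dzb_of_hol {f : C2 → V} {z : C2} (h : DifferentiableAt ℂ f z) (j : Fin 2) :
    dzb j f z = 0 := by
  unfold dzb
  rw [h.fderiv_restrictScalars ℝ, single_I]
  simp [smul_smul]

theorem dz_of_hol {f : C2 → V} {z : C2} (h : DifferentiableAt ℂ f z) (j : Fin 2) :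
    dz j f z = fderiv ℂ f z (Pi.single j 1) := by
  unfold dz
  rw [h.fderiv_restrictScalars ℝ, single_I]
  simp only [ContinuousLinearMap.coe_restrictScalars', map_smul, smul_smul]
  rw [Complex.I_mul_I]
  module

/-- a real differentiable function is complex differentiable iff its `z̄`-derivatives vanish -/
theorem differentiableAt_complex_iff {f : C2 → V} {z : C2} (h : DifferentiableAt ℝ f z) :
    DifferentiableAt ℂ f z ↔ ∀ j, dzb j f z = 0 := by
  refine ⟨fun h' j => dzb_of_hol h' j, fun h0 => ?_⟩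
  have h1 : ∀ v, fderiv ℝ f z v = ∑ i, v i • dz i f z := by
    intro v
    rw [fderiv_eq_wirt v]
    refine Finset.sum_congr rfl fun i _ => ?_
    rw [h0, smul_zero, add_zero]
  let T : C2 →L[ℂ] V := LinearMap.toContinuousLinearMap
    { toFun := fun v => ∑ i, v i • dz i f z
      map_add' := fun u v => by simp [add_smul, Finset.sum_add_distrib]
      map_smul' := fun c v => by simp [smul_smul] }
  have h2 : HasFDerivAt f (T.restrictScalars ℝ) z := by
    have : fderiv ℝ f z = T.restrictScalars ℝ := by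
      ext v
      exact h1 v
    rw [← this]
    exact h.hasFDerivAt
  have h3 : HasFDerivAt f T z := by
    rw [hasFDerivAt_iff_isLittleO_nhds_zero] at h2 ⊢
    exact h2
  exact h3.differentiableAt

/-! ### chain rule with a holomorphic map -/

theorem dzb_comp {f : C2 → V} {g : C2 → C2} {z : C2} (hf : DifferentiableAt ℝ f (g z))
    (hg : DifferentiableAt ℂ g z) (i : Fin 2) :
    dzb i (fun y => f (g y)) z = ∑ p, conj (dz i (fun y => g y p) z) • dzb p f (g z) := by
  have hg' : DifferentiableAt ℝ g z := hg.restrictScalars ℝ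
  have h1 : fderiv ℝ (fun y => f (g y)) z = (fderiv ℝ f (g z)).comp (fderiv ℝ g z) :=
    fderiv_fun_comp z hf hg'
  have h2 : ∀ p, dz i (fun y => g y p) z = (fderiv ℂ g z (Pi.single i 1)) p := by
    intro p
    have := dz_clm (ContinuousLinearMap.proj (R := ℂ) (φ := fun _ : Fin 2 => ℂ) p) hg' i
    simp only [ContinuousLinearMap.proj_apply] at this
    rw [this, dz_of_hol hg]
  simp only [h2]
  unfold dzb
  rw [h1, hg.fderiv_restrictScalars ℝ, single_I]
  simp only [ContinuousLinearMap.comp_apply, ContinuousLinearMap.coe_restrictScalars', map_smul]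
  set w := fderiv ℂ g z (Pi.single i 1)
  have e1 := fderiv_eq_wirt (f := f) (z := g z) w
  have e2 := fderiv_eq_wirt (f := f) (z := g z) (Complex.I • w)
  rw [e1, e2]
  simp only [Fin.sum_univ_two, Pi.smul_apply, smul_eq_mul, map_mul, Complex.conj_I]
  change _ = conj (w 0) • dzb 0 f (g z) + conj (w 1) • dzb 1 f (g z)
  have hI : Complex.I * Complex.I = -1 := Complex.I_mul_I
  simp only [smul_add, smul_smul]
  match_scalars
  · linear_combination (1 / 2 * w 0) * hI
  · linear_combination (-1 / 2 * (starRingEnd ℂ) (w 0)) * hI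
  · linear_combination (1 / 2 * w 1) * hI
  · linear_combination (-1 / 2 * (starRingEnd ℂ) (w 1)) * hI

theorem dz_comp {f : C2 → V} {g : C2 → C2} {z : C2} (hf : DifferentiableAt ℝ f (g z))
    (hg : DifferentiableAt ℂ g z) (i : Fin 2) :
    dz i (fun y => f (g y)) z = ∑ p, dz i (fun y => g y p) z • dz p f (g z) := by
  have hg' : DifferentiableAt ℝ g z := hg.restrictScalars ℝ
  have h1 : fderiv ℝ (fun y => f (g y)) z = (fderiv ℝ f (g z)).comp (fderiv ℝ g z) :=
    fderiv_fun_comp z hf hg'
  have h2 : ∀ p, dz i (fun y => g y p) z = (fderiv ℂ g z (Pi.single i 1)) p := by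
    intro p
    have := dz_clm (ContinuousLinearMap.proj (R := ℂ) (φ := fun _ : Fin 2 => ℂ) p) hg' i
    simp only [ContinuousLinearMap.proj_apply] at this
    rw [this, dz_of_hol hg]
  simp only [h2]
  conv_lhs => unfold dz
  rw [h1, hg.fderiv_restrictScalars ℝ, single_I]
  simp only [ContinuousLinearMap.comp_apply, ContinuousLinearMap.coe_restrictScalars', map_smul]
  set w := fderiv ℂ g z (Pi.single i 1)
  have e1 := fderiv_eq_wirt (f := f) (z := g z) w
  have e2 := fderiv_eq_wirt (f := f) (z := g z) (Complex.I • w)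
  rw [e1, e2]
  simp only [Fin.sum_univ_two, Pi.smul_apply, smul_eq_mul, map_mul, Complex.conj_I]
  have hI : Complex.I * Complex.I = -1 := Complex.I_mul_I
  simp only [smul_add, smul_smul]
  match_scalars
  · linear_combination (-1 / 2 * w 0) * hI
  · linear_combination (1 / 2 * (starRingEnd ℂ) (w 0)) * hI
  · linear_combination (-1 / 2 * w 1) * hI
  · linear_combination (1 / 2 * (starRingEnd ℂ) (w 1)) * hI

/-! ### second derivatives, smoothness -/

theorem contDiffOn_dz {f : C2 → V} {U : Set C2} {m n : WithTop ℕ∞} (hU : IsOpen U)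
    (hf : ContDiffOn ℝ n f U) (hmn : m + 1 ≤ n) (j : Fin 2) : ContDiffOn ℝ m (dz j f) U := by
  have h := hf.fderiv_of_isOpen hU hmn
  unfold dz
  exact contDiffOn_const.smul ((h.clm_apply contDiffOn_const).sub
    (contDiffOn_const.smul (h.clm_apply contDiffOn_const)))

theorem contDiffOn_dzb {f : C2 → V} {U : Set C2} {m n : WithTop ℕ∞} (hU : IsOpen U)
    (hf : ContDiffOn ℝ n f U) (hmn : m + 1 ≤ n) (j : Fin 2) : ContDiffOn ℝ m (dzb j f) U := by
  have h := hf.fderiv_of_isOpen hU hmn
  unfold dzb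
  exact contDiffOn_const.smul ((h.clm_apply contDiffOn_const).add
    (contDiffOn_const.smul (h.clm_apply contDiffOn_const)))

theorem contDiffAt_dz {f : C2 → V} {z : C2} {m n : WithTop ℕ∞}
    (hf : ContDiffAt ℝ n f z) (hmn : m + 1 ≤ n) (j : Fin 2) : ContDiffAt ℝ m (dz j f) z := by
  have h := hf.fderiv_right hmn
  unfold dz
  exact contDiffAt_const.smul ((h.clm_apply contDiffAt_const).sub
    (contDiffAt_const.smul (h.clm_apply contDiffAt_const)))

theorem contDiffAt_dzb {f : C2 → V} {z : C2} {m n : WithTop ℕ∞}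
    (hf : ContDiffAt ℝ n f z) (hmn : m + 1 ≤ n) (j : Fin 2) : ContDiffAt ℝ m (dzb j f) z := by
  have h := hf.fderiv_right hmn
  unfold dzb
  exact contDiffAt_const.smul ((h.clm_apply contDiffAt_const).add
    (contDiffAt_const.smul (h.clm_apply contDiffAt_const)))

theorem fderiv_fderiv_apply {f : C2 → V} {z : C2} (hf : ContDiffAt ℝ 2 f z) (u v : C2) :
    fderiv ℝ (fun y => fderiv ℝ f y v) z u = fderiv ℝ (fderiv ℝ f) z u v := by
  have h1 : DifferentiableAt ℝ (fderiv ℝ f) z :=
    (hf.fderiv_right (m := 1) (by norm_num)).differentiableAt (by norm_num)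
  rw [fderiv_clm_apply h1 (differentiableAt_const v)]
  simp

/-- explicit form of mixed second derivatives -/
theorem wirt_wirt {f : C2 → V} {z : C2} (hf : ContDiffAt ℝ 2 f z) (i j : Fin 2) (ε δ : ℂ) :
    (1 / 2 : ℂ) • (fderiv ℝ (fun y => (1 / 2 : ℂ) • (fderiv ℝ f y (Pi.single j 1) +
        ε • fderiv ℝ f y (Pi.single j Complex.I))) z (Pi.single i 1) +
      δ • fderiv ℝ (fun y => (1 / 2 : ℂ) • (fderiv ℝ f y (Pi.single j 1) +
        ε • fderiv ℝ f y (Pi.single j Complex.I))) z (Pi.single i Complex.I)) =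
    (1 / 4 : ℂ) • (fderiv ℝ (fderiv ℝ f) z (Pi.single i 1) (Pi.single j 1) +
      ε • fderiv ℝ (fderiv ℝ f) z (Pi.single i 1) (Pi.single j Complex.I) +
      δ • fderiv ℝ (fderiv ℝ f) z (Pi.single i Complex.I) (Pi.single j 1) +
      (δ * ε) • fderiv ℝ (fderiv ℝ f) z (Pi.single i Complex.I) (Pi.single j Complex.I)) := by
  have h1 : DifferentiableAt ℝ (fderiv ℝ f) z :=
    (hf.fderiv_right (m := 1) (by norm_num)).differentiableAt (by norm_num)
  have hd : ∀ v : C2, DifferentiableAt ℝ (fun y => fderiv ℝ f y v) z := fun v =>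
    h1.clm_apply (differentiableAt_const v)
  have h2 : ∀ u : C2, fderiv ℝ (fun y => (1 / 2 : ℂ) • (fderiv ℝ f y (Pi.single j 1) +
        ε • fderiv ℝ f y (Pi.single j Complex.I))) z u =
      (1 / 2 : ℂ) • (fderiv ℝ (fderiv ℝ f) z u (Pi.single j 1) +
        ε • fderiv ℝ (fderiv ℝ f) z u (Pi.single j Complex.I)) := by
    intro u
    rw [fderiv_fun_const_smul ((hd _).fun_add ((hd _).fun_const_smul ε)),
      fderiv_fun_add (hd _) ((hd _).fun_const_smul ε), fderiv_fun_const_smul (hd _)]
    simp only [smul_apply, add_apply]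
    rw [fderiv_fderiv_apply hf, fderiv_fderiv_apply hf]
  rw [h2, h2]
  module

theorem second_symm {f : C2 → V} {z : C2} (hf : ContDiffAt ℝ 2 f z) (u v : C2) :
    fderiv ℝ (fderiv ℝ f) z u v = fderiv ℝ (fderiv ℝ f) z v u :=
  (hf.isSymmSndFDerivAt (by simp)) u v

theorem dzb_dzb_comm {f : C2 → V} {z : C2} (hf : ContDiffAt ℝ 2 f z) (i j : Fin 2) :
    dzb i (dzb j f) z = dzb j (dzb i f) z := by
  have e1 := wirt_wirt hf i j Complex.I Complex.I
  have e2 := wirt_wirt hf j i Complex.I Complex.I
  have l1 : dzb i (dzb j f) z = _ := e1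
  have l2 : dzb j (dzb i f) z = _ := e2
  rw [l1, l2, second_symm hf (Pi.single j 1) (Pi.single i 1),
    second_symm hf (Pi.single j 1) (Pi.single i Complex.I),
    second_symm hf (Pi.single j Complex.I) (Pi.single i 1),
    second_symm hf (Pi.single j Complex.I) (Pi.single i Complex.I)]
  module

theorem dz_dz_comm {f : C2 → V} {z : C2} (hf : ContDiffAt ℝ 2 f z) (i j : Fin 2) :
    dz i (dz j f) z = dz j (dz i f) z := by
  have e1 := wirt_wirt hf i j (-Complex.I) (-Complex.I)
  have e2 := wirt_wirt hf j i (-Complex.I) (-Complex.I)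
  simp only [neg_smul, ← sub_eq_add_neg] at e1 e2
  have l1 : dz i (dz j f) z = _ := e1
  have l2 : dz j (dz i f) z = _ := e2
  rw [l1, l2, second_symm hf (Pi.single j 1) (Pi.single i 1),
    second_symm hf (Pi.single j 1) (Pi.single i Complex.I),
    second_symm hf (Pi.single j Complex.I) (Pi.single i 1),
    second_symm hf (Pi.single j Complex.I) (Pi.single i Complex.I)]
  module

theorem dz_dzb_comm {f : C2 → V} {z : C2} (hf : ContDiffAt ℝ 2 f z) (i j : Fin 2) :
    dz i (dzb j f) z = dzb j (dz i f) z := by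
  have e1 := wirt_wirt hf i j Complex.I (-Complex.I)
  have e2 := wirt_wirt hf j i (-Complex.I) Complex.I
  simp only [neg_smul, ← sub_eq_add_neg] at e1 e2
  have l1 : dz i (dzb j f) z = _ := e1
  have l2 : dzb j (dz i f) z = _ := e2
  rw [l1, l2, second_symm hf (Pi.single j 1) (Pi.single i 1),
    second_symm hf (Pi.single j 1) (Pi.single i Complex.I),
    second_symm hf (Pi.single j Complex.I) (Pi.single i 1),
    second_symm hf (Pi.single j Complex.I) (Pi.single i Complex.I)]
  module

/-- derivatives of holomorphic functions are holomorphic -/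
theorem hol_dz [CompleteSpace V] {f : C2 → V} {z : C2} (hf : AnalyticAt ℂ f z) (j : Fin 2) :
    AnalyticAt ℂ (dz j f) z := by
  have h1 : AnalyticAt ℂ (fun y => fderiv ℂ f y (Pi.single j 1)) z := by
    exact ((ContinuousLinearMap.apply ℂ V (Pi.single j (1 : ℂ) : C2)).analyticAt _).comp hf.fderiv
  refine h1.congr ?_
  filter_upwards [hf.eventually_analyticAt] with y hy
  exact (dz_of_hol hy.differentiableAt j).symm

end Vale.Agent.P267.FL
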