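import Vale.Agent.P267.H399.Calc

/-! P267 / H399: pointwise regularity `At0`, `At1`, `At2` and the algebra of `∂̄`. -/

set_option linter.unusedVariables false
set_option linter.unusedSectionVars false
set_option linter.unusedSimpArgs false

open scoped Manifold ContDiff ComplexConjugate Matrix ComplexOrder
open MeasureTheory Set Filter Topology

noncomputable section

namespace Vale.Agent.P267.FL

variable {X : Type*} [TopologicalSpace X] [ChartedSpace C2 X]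
variable {V : Type*} [NormedAddCommGroup V] [NormedSpace ℂ V]
variable {W : Type*} [NormedAddCommGroup W] [NormedSpace ℂ W]
variable {Z : Type*} [NormedAddCommGroup Z] [NormedSpace ℂ Z]

/-- class `C^n` at the point `x` -/
def At0 (n : WithTop ℕ∞) (κ : ℤ) (s : X → V) (x : X) : Prop :=
  ContDiffAt ℝ n (loc0 κ (chartAt C2 x) s) (chartAt C2 x x)

/-- class `C^n` at the point `x` -/
def At1 (n : WithTop ℕ∞) (κ : ℤ) (a : X → Fin 2 → V) (x : X) : Prop :=
  ContDiffAt ℝ n (loc1 κ (chartAt C2 x) a) (chartAt C2 x x)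

/-- class `C^n` at the point `x` -/
def At2 (n : WithTop ℕ∞) (κ : ℤ) (b : X → V) (x : X) : Prop :=
  ContDiffAt ℝ n (loc2 κ (chartAt C2 x) b) (chartAt C2 x x)

theorem At0.of_le {m n : WithTop ℕ∞} {κ : ℤ} {s : X → V} {x : X} (h : At0 n κ s x) (hmn : m ≤ n) :
    At0 m κ s x := ContDiffAt.of_le h hmn

theorem At1.of_le {m n : WithTop ℕ∞} {κ : ℤ} {s : X → Fin 2 → V} {x : X} (h : At1 n κ s x)
    (hmn : m ≤ n) : At1 m κ s x := ContDiffAt.of_le h hmn

theorem At2.of_le {m n : WithTop ℕ∞} {κ : ℤ} {s : X → V} {x : X} (h : At2 n κ s x) (hmn : m ≤ n) :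
    At2 m κ s x := ContDiffAt.of_le h hmn

theorem Reg0.of_le {m n : WithTop ℕ∞} {κ : ℤ} {s : X → V} (h : Reg0 n κ s) (hmn : m ≤ n) :
    Reg0 m κ s := fun e he => (h e he).of_le hmn

theorem Reg1.of_le {m n : WithTop ℕ∞} {κ : ℤ} {s : X → Fin 2 → V} (h : Reg1 n κ s) (hmn : m ≤ n) :
    Reg1 m κ s := fun e he => (h e he).of_le hmn

theorem Reg2.of_le {m n : WithTop ℕ∞} {κ : ℤ} {s : X → V} (h : Reg2 n κ s) (hmn : m ≤ n) :
    Reg2 m κ s := fun e he => (h e he).of_le hmn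

/-! ### locality -/

theorem tendsto_symm_nhds {e : Ch X} {x : X} (hx : x ∈ e.source) :
    Tendsto e.symm (𝓝 (e x)) (𝓝 x) := by
  have := e.continuousAt_symm (e.map_source hx)
  rwa [ContinuousAt, e.left_inv hx] at this

theorem loc0_congr {κ : ℤ} {e : Ch X} {x : X} (hx : x ∈ e.source) {s t : X → V}
    (h : s =ᶠ[𝓝 x] t) : loc0 κ e s =ᶠ[𝓝 (e x)] loc0 κ e t := by
  filter_upwards [(tendsto_symm_nhds hx).eventually h] with z hz
  rw [loc0, loc0, hz]

theorem loc1_congr {κ : ℤ} {e : Ch X} {x : X} (hx : x ∈ e.source) {s t : X → Fin 2 → V}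
    (h : s =ᶠ[𝓝 x] t) : loc1 κ e s =ᶠ[𝓝 (e x)] loc1 κ e t := by
  filter_upwards [(tendsto_symm_nhds hx).eventually h] with z hz
  funext i
  rw [loc1, loc1, hz]

theorem loc2_congr {κ : ℤ} {e : Ch X} {x : X} (hx : x ∈ e.source) {s t : X → V}
    (h : s =ᶠ[𝓝 x] t) : loc2 κ e s =ᶠ[𝓝 (e x)] loc2 κ e t := by
  filter_upwards [(tendsto_symm_nhds hx).eventually h] with z hz
  rw [loc2, loc2, hz]

theorem At0.congr {n : WithTop ℕ∞} {κ : ℤ} {s t : X → V} {x : X} (h : At0 n κ s x)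
    (hst : t =ᶠ[𝓝 x] s) : At0 n κ t x :=
  ContDiffAt.congr_of_eventuallyEq h (loc0_congr (mem_chart_source C2 x) hst)

theorem At1.congr {n : WithTop ℕ∞} {κ : ℤ} {s t : X → Fin 2 → V} {x : X} (h : At1 n κ s x)
    (hst : t =ᶠ[𝓝 x] s) : At1 n κ t x :=
  ContDiffAt.congr_of_eventuallyEq h (loc1_congr (mem_chart_source C2 x) hst)

theorem At2.congr {n : WithTop ℕ∞} {κ : ℤ} {s t : X → V} {x : X} (h : At2 n κ s x)
    (hst : t =ᶠ[𝓝 x] s) : At2 n κ t x :=
  ContDiffAt.congr_of_eventuallyEq h (loc2_congr (mem_chart_source C2 x) hst)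

theorem dbar0_congr {κ : ℤ} {s t : X → V} {x : X} (h : s =ᶠ[𝓝 x] t) :
    dbar0 κ s x = dbar0 κ t x := by
  funext i
  exact dzb_congr (loc0_congr (mem_chart_source C2 x) h) i

theorem dbar1_congr {κ : ℤ} {s t : X → Fin 2 → V} {x : X} (h : s =ᶠ[𝓝 x] t) :
    dbar1 κ s x = dbar1 κ t x := by
  have h1 := loc1_congr (κ := κ) (mem_chart_source C2 x) h
  rw [dbar1, dbar1, dzb_congr (h1.mono fun z hz => congrFun hz 1) 0,
    dzb_congr (h1.mono fun z hz => congrFun hz 0) 1]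

/-! ### sums and linear maps -/

section linear

theorem loc0_add' {κ : ℤ} {e : Ch X} {s t : X → V} :
    loc0 κ e (fun y => s y + t y) = fun z => loc0 κ e s z + loc0 κ e t z := by
  funext z
  simp only [loc0, smul_add]

theorem loc1_add' {κ : ℤ} {e : Ch X} {s t : X → Fin 2 → V} :
    loc1 κ e (fun y => s y + t y) = fun z => loc1 κ e s z + loc1 κ e t z := by
  funext z i
  simp only [loc1, Pi.add_apply, smul_add, Finset.sum_add_distrib]

theorem loc2_add' {κ : ℤ} {e : Ch X} {s t : X → V} :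
    loc2 κ e (fun y => s y + t y) = fun z => loc2 κ e s z + loc2 κ e t z := by
  funext z
  simp only [loc2, smul_add]

theorem loc0_clm {κ : ℤ} {e : Ch X} (T : V →L[ℂ] W) {s : X → V} :
    loc0 κ e (fun y => T (s y)) = fun z => T (loc0 κ e s z) := by
  funext z
  simp only [loc0, map_smul]

theorem loc1_clm {κ : ℤ} {e : Ch X} (T : V →L[ℂ] W) {s : X → Fin 2 → V} (i : Fin 2) :
    (fun z => loc1 κ e (fun y i => T (s y i)) z i) = fun z => T (loc1 κ e s z i) := by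
  funext z
  simp only [loc1, map_smul, map_sum]

theorem loc2_clm {κ : ℤ} {e : Ch X} (T : V →L[ℂ] W) {s : X → V} :
    loc2 κ e (fun y => T (s y)) = fun z => T (loc2 κ e s z) := by
  funext z
  simp only [loc2, map_smul]

theorem At0.add {n : WithTop ℕ∞} {κ : ℤ} {s t : X → V} {x : X} (hs : At0 n κ s x)
    (ht : At0 n κ t x) : At0 n κ (fun y => s y + t y) x := by
  rw [At0, loc0_add']
  exact ContDiffAt.add hs ht

theorem At1.add {n : WithTop ℕ∞} {κ : ℤ} {s t : X → Fin 2 → V} {x : X} (hs : At1 n κ s x)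
    (ht : At1 n κ t x) : At1 n κ (fun y => s y + t y) x := by
  rw [At1, loc1_add']
  exact ContDiffAt.add hs ht

theorem At2.add {n : WithTop ℕ∞} {κ : ℤ} {s t : X → V} {x : X} (hs : At2 n κ s x)
    (ht : At2 n κ t x) : At2 n κ (fun y => s y + t y) x := by
  rw [At2, loc2_add']
  exact ContDiffAt.add hs ht

theorem At0.clm {n : WithTop ℕ∞} {κ : ℤ} (T : V →L[ℂ] W) {s : X → V} {x : X} (hs : At0 n κ s x) :
    At0 n κ (fun y => T (s y)) x := by
  rw [At0, loc0_clm]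
  exact ((T.restrictScalars ℝ).contDiff.contDiffAt).comp _ hs

theorem At1.clm {n : WithTop ℕ∞} {κ : ℤ} (T : V →L[ℂ] W) {s : X → Fin 2 → V} {x : X}
    (hs : At1 n κ s x) : At1 n κ (fun y i => T (s y i)) x := by
  rw [At1, contDiffAt_pi]
  intro i
  rw [loc1_clm]
  exact ((T.restrictScalars ℝ).contDiff.contDiffAt).comp _ (contDiffAt_pi.1 hs i)

theorem At2.clm {n : WithTop ℕ∞} {κ : ℤ} (T : V →L[ℂ] W) {s : X → V} {x : X} (hs : At2 n κ s x) :
    At2 n κ (fun y => T (s y)) x := by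
  rw [At2, loc2_clm]
  exact ((T.restrictScalars ℝ).contDiff.contDiffAt).comp _ hs

theorem At0.diff {n : WithTop ℕ∞} {κ : ℤ} {s : X → V} {x : X} (hs : At0 n κ s x) (hn : 1 ≤ n) :
    DifferentiableAt ℝ (loc0 κ (chartAt C2 x) s) (chartAt C2 x x) :=
  ContDiffAt.differentiableAt hs (by
    intro h0
    rw [h0] at hn
    exact absurd hn (by simp))

theorem At1.diff {n : WithTop ℕ∞} {κ : ℤ} {s : X → Fin 2 → V} {x : X} (hs : At1 n κ s x)
    (hn : 1 ≤ n) : DifferentiableAt ℝ (loc1 κ (chartAt C2 x) s) (chartAt C2 x x) :=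
  ContDiffAt.differentiableAt hs (by
    intro h0
    rw [h0] at hn
    exact absurd hn (by simp))

theorem At1.diff' {n : WithTop ℕ∞} {κ : ℤ} {s : X → Fin 2 → V} {x : X} (hs : At1 n κ s x)
    (hn : 1 ≤ n) (i : Fin 2) :
    DifferentiableAt ℝ (fun z => loc1 κ (chartAt C2 x) s z i) (chartAt C2 x x) :=
  differentiableAt_pi.1 (hs.diff hn) i

theorem dbar0_add {κ : ℤ} {s t : X → V} {x : X} (hs : At0 1 κ s x) (ht : At0 1 κ t x) :
    dbar0 κ (fun y => s y + t y) x = dbar0 κ s x + dbar0 κ t x := by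
  funext i
  rw [dbar0, loc0_add', dzb_add (hs.diff le_rfl) (ht.diff le_rfl)]
  rfl

theorem dbar0_clm {κ : ℤ} (T : V →L[ℂ] W) {s : X → V} {x : X} (hs : At0 1 κ s x) (i : Fin 2) :
    dbar0 κ (fun y => T (s y)) x i = T (dbar0 κ s x i) := by
  rw [dbar0, loc0_clm, dzb_clm T (hs.diff le_rfl)]
  rfl

theorem dbar1_add {κ : ℤ} {s t : X → Fin 2 → V} {x : X} (hs : At1 1 κ s x) (ht : At1 1 κ t x) :
    dbar1 κ (fun y => s y + t y) x = dbar1 κ s x + dbar1 κ t x := by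
  have h1 : ∀ i, (fun z => loc1 κ (chartAt C2 x) (fun y => s y + t y) z i) =
      fun z => loc1 κ (chartAt C2 x) s z i + loc1 κ (chartAt C2 x) t z i := by
    intro i
    rw [loc1_add']
    rfl
  rw [dbar1, h1, h1, dzb_add (hs.diff' le_rfl 1) (ht.diff' le_rfl 1),
    dzb_add (hs.diff' le_rfl 0) (ht.diff' le_rfl 0), dbar1, dbar1]
  abel

theorem dbar1_clm {κ : ℤ} (T : V →L[ℂ] W) {s : X → Fin 2 → V} {x : X} (hs : At1 1 κ s x) :
    dbar1 κ (fun y i => T (s y i)) x = T (dbar1 κ s x) := by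
  rw [dbar1, loc1_clm, loc1_clm, dzb_clm T (hs.diff' le_rfl 1), dzb_clm T (hs.diff' le_rfl 0),
    dbar1, map_sub]

theorem At0.const_smul {n : WithTop ℕ∞} {κ : ℤ} (c : ℂ) {s : X → V} {x : X} (hs : At0 n κ s x) :
    At0 n κ (fun y => c • s y) x := by
  simpa using hs.clm (c • ContinuousLinearMap.id ℂ V)

theorem At1.const_smul {n : WithTop ℕ∞} {κ : ℤ} (c : ℂ) {s : X → Fin 2 → V} {x : X}
    (hs : At1 n κ s x) : At1 n κ (fun y i => c • s y i) x := by
  simpa using hs.clm (c • ContinuousLinearMap.id ℂ V)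

theorem At2.const_smul {n : WithTop ℕ∞} {κ : ℤ} (c : ℂ) {s : X → V} {x : X} (hs : At2 n κ s x) :
    At2 n κ (fun y => c • s y) x := by
  simpa using hs.clm (c • ContinuousLinearMap.id ℂ V)

theorem dbar0_const_smul {κ : ℤ} (c : ℂ) {s : X → V} {x : X} (hs : At0 1 κ s x) (i : Fin 2) :
    dbar0 κ (fun y => c • s y) x i = c • dbar0 κ s x i := by
  simpa using dbar0_clm (c • ContinuousLinearMap.id ℂ V) hs i

theorem dbar1_const_smul {κ : ℤ} (c : ℂ) {s : X → Fin 2 → V} {x : X} (hs : At1 1 κ s x) :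
    dbar1 κ (fun y i => c • s y i) x = c • dbar1 κ s x := by
  simpa using dbar1_clm (c • ContinuousLinearMap.id ℂ V) hs

theorem At0.neg {n : WithTop ℕ∞} {κ : ℤ} {s : X → V} {x : X} (hs : At0 n κ s x) :
    At0 n κ (fun y => -s y) x := by
  simpa using hs.const_smul (-1)

theorem At1.neg {n : WithTop ℕ∞} {κ : ℤ} {s : X → Fin 2 → V} {x : X} (hs : At1 n κ s x) :
    At1 n κ (fun y i => -s y i) x := by
  simpa using hs.const_smul (-1)

theorem At2.neg {n : WithTop ℕ∞} {κ : ℤ} {s : X → V} {x : X} (hs : At2 n κ s x) :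
    At2 n κ (fun y => -s y) x := by
  simpa using hs.const_smul (-1)

theorem dbar0_neg {κ : ℤ} {s : X → V} {x : X} (hs : At0 1 κ s x) :
    dbar0 κ (fun y => -s y) x = -dbar0 κ s x := by
  funext i
  simpa using dbar0_const_smul (-1) hs i

theorem dbar1_neg {κ : ℤ} {s : X → Fin 2 → V} {x : X} (hs : At1 1 κ s x) :
    dbar1 κ (fun y i => -s y i) x = -dbar1 κ s x := by
  simpa using dbar1_const_smul (-1) hs

theorem At0.sub {n : WithTop ℕ∞} {κ : ℤ} {s t : X → V} {x : X} (hs : At0 n κ s x)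
    (ht : At0 n κ t x) : At0 n κ (fun y => s y - t y) x := by
  simpa [sub_eq_add_neg] using hs.add ht.neg

theorem At1.sub {n : WithTop ℕ∞} {κ : ℤ} {s t : X → Fin 2 → V} {x : X} (hs : At1 n κ s x)
    (ht : At1 n κ t x) : At1 n κ (fun y => s y - t y) x := by
  have := hs.add ht.neg
  refine this.congr (Eventually.of_forall fun y => ?_)
  funext i
  simp [sub_eq_add_neg]

theorem At2.sub {n : WithTop ℕ∞} {κ : ℤ} {s t : X → V} {x : X} (hs : At2 n κ s x)
    (ht : At2 n κ t x) : At2 n κ (fun y => s y - t y) x := by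
  simpa [sub_eq_add_neg] using hs.add ht.neg

theorem dbar0_sub {κ : ℤ} {s t : X → V} {x : X} (hs : At0 1 κ s x) (ht : At0 1 κ t x) :
    dbar0 κ (fun y => s y - t y) x = dbar0 κ s x - dbar0 κ t x := by
  have h1 := dbar0_add hs ht.neg
  rw [dbar0_neg ht] at h1
  simpa [sub_eq_add_neg] using h1

theorem dbar1_sub {κ : ℤ} {s t : X → Fin 2 → V} {x : X} (hs : At1 1 κ s x) (ht : At1 1 κ t x) :
    dbar1 κ (fun y => s y - t y) x = dbar1 κ s x - dbar1 κ t x := by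
  have h1 := dbar1_add hs ht.neg
  rw [dbar1_neg ht] at h1
  rw [sub_eq_add_neg, ← h1]
  refine dbar1_congr (Eventually.of_forall fun y => ?_)
  funext i
  simp [sub_eq_add_neg]

theorem loc0_zero_fun {κ : ℤ} {e : Ch X} : loc0 κ e (fun _ => (0 : V)) = fun _ => 0 := by
  funext z
  simp [loc0]

theorem loc1_zero_fun {κ : ℤ} {e : Ch X} :
    loc1 κ e (fun (_ : X) (_ : Fin 2) => (0 : V)) = fun _ => 0 := by
  funext z i
  simp [loc1]

theorem loc2_zero_fun {κ : ℤ} {e : Ch X} : loc2 κ e (fun _ => (0 : V)) = fun _ => 0 := by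
  funext z
  simp [loc2]

theorem at0_zero {n : WithTop ℕ∞} {κ : ℤ} {x : X} : At0 n κ (fun _ => (0 : V)) x := by
  rw [At0, loc0_zero_fun]
  exact contDiffAt_const

theorem at1_zero {n : WithTop ℕ∞} {κ : ℤ} {x : X} :
    At1 n κ (fun (_ : X) (_ : Fin 2) => (0 : V)) x := by
  rw [At1, loc1_zero_fun]
  exact contDiffAt_const

theorem at2_zero {n : WithTop ℕ∞} {κ : ℤ} {x : X} : At2 n κ (fun _ => (0 : V)) x := by
  rw [At2, loc2_zero_fun]
  exact contDiffAt_const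

@[simp] theorem dbar0_zero {κ : ℤ} {x : X} : dbar0 κ (fun _ : X => (0 : V)) x = 0 := by
  funext i
  rw [dbar0, loc0_zero_fun, dzb_const]
  rfl

@[simp] theorem dbar1_zero {κ : ℤ} {x : X} :
    dbar1 κ (fun (_ : X) (_ : Fin 2) => (0 : V)) x = 0 := by
  rw [dbar1, loc1_zero_fun]
  simp [dzb_const]

theorem at0_const {n : WithTop ℕ∞} {c : V} {x : X} : At0 n 0 (fun _ => c) x := by
  have : loc0 0 (chartAt C2 x) (fun _ : X => c) = fun _ => c := by
    funext z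
    simp [loc0]
  rw [At0, this]
  exact contDiffAt_const

@[simp] theorem dbar0_const {c : V} {x : X} : dbar0 0 (fun _ : X => c) x = 0 := by
  have : loc0 0 (chartAt C2 x) (fun _ : X => c) = fun _ => c := by
    funext z
    simp [loc0]
  funext i
  rw [dbar0, this, dzb_const]
  rfl

theorem At0.sum {n : WithTop ℕ∞} {κ : ℤ} {ι : Type*} {S : Finset ι} {s : ι → X → V} {x : X}
    (hs : ∀ i ∈ S, At0 n κ (s i) x) : At0 n κ (fun y => ∑ i ∈ S, s i y) x := by
  classical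
  induction S using Finset.induction_on with
  | empty => simpa using at0_zero
  | insert i S hi ih =>
    simp only [Finset.sum_insert hi]
    exact (hs i (Finset.mem_insert_self i S)).add
      (ih fun j hj => hs j (Finset.mem_insert_of_mem hj))

theorem At1.sum {n : WithTop ℕ∞} {κ : ℤ} {ι : Type*} {S : Finset ι} {s : ι → X → Fin 2 → V} {x : X}
    (hs : ∀ i ∈ S, At1 n κ (s i) x) : At1 n κ (fun y => ∑ i ∈ S, s i y) x := by
  classical
  induction S using Finset.induction_on with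
  | empty => exact at1_zero (n := n) (κ := κ)
  | insert i S hi ih =>
    simp only [Finset.sum_insert hi]
    exact (hs i (Finset.mem_insert_self i S)).add
      (ih fun j hj => hs j (Finset.mem_insert_of_mem hj))

theorem At2.sum {n : WithTop ℕ∞} {κ : ℤ} {ι : Type*} {S : Finset ι} {s : ι → X → V} {x : X}
    (hs : ∀ i ∈ S, At2 n κ (s i) x) : At2 n κ (fun y => ∑ i ∈ S, s i y) x := by
  classical
  induction S using Finset.induction_on with
  | empty => simpa using at2_zero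
  | insert i S hi ih =>
    simp only [Finset.sum_insert hi]
    exact (hs i (Finset.mem_insert_self i S)).add
      (ih fun j hj => hs j (Finset.mem_insert_of_mem hj))

theorem dbar0_sum {κ : ℤ} {ι : Type*} {S : Finset ι} {s : ι → X → V} {x : X}
    (hs : ∀ i ∈ S, At0 1 κ (s i) x) :
    dbar0 κ (fun y => ∑ i ∈ S, s i y) x = ∑ i ∈ S, dbar0 κ (s i) x := by
  classical
  induction S using Finset.induction_on with
  | empty => simp
  | insert i S hi ih =>
    simp only [Finset.sum_insert hi]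
    rw [dbar0_add (hs i (Finset.mem_insert_self i S))
      (At0.sum fun j hj => hs j (Finset.mem_insert_of_mem hj)),
      ih fun j hj => hs j (Finset.mem_insert_of_mem hj)]

theorem dbar1_sum {κ : ℤ} {ι : Type*} {S : Finset ι} {s : ι → X → Fin 2 → V} {x : X}
    (hs : ∀ i ∈ S, At1 1 κ (s i) x) :
    dbar1 κ (fun y => ∑ i ∈ S, s i y) x = ∑ i ∈ S, dbar1 κ (s i) x := by
  classical
  induction S using Finset.induction_on with
  | empty => exact dbar1_zero
  | insert i S hi ih =>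
    simp only [Finset.sum_insert hi]
    rw [dbar1_add (hs i (Finset.mem_insert_self i S))
      (At1.sum fun j hj => hs j (Finset.mem_insert_of_mem hj)),
      ih fun j hj => hs j (Finset.mem_insert_of_mem hj)]

end linear

/-! ### any chart -/

section chart

variable [IsManifold 𝓘(ℂ, C2) ω X]

theorem At0.chart {n : WithTop ℕ∞} {κ : ℤ} {s : X → V} {x : X} (h : At0 n κ s x) {e : Ch X}
    (he : e ∈ atlas C2 X) (hx : x ∈ e.source) : ContDiffAt ℝ n (loc0 κ e s) (e x) :=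
  loc0_contDiffAt_change he (chart_mem_atlas C2 x) hx (mem_chart_source C2 x) h

theorem at0_of_chart {n : WithTop ℕ∞} {κ : ℤ} {s : X → V} {x : X} {e : Ch X}
    (he : e ∈ atlas C2 X) (hx : x ∈ e.source) (h : ContDiffAt ℝ n (loc0 κ e s) (e x)) :
    At0 n κ s x :=
  loc0_contDiffAt_change (chart_mem_atlas C2 x) he (mem_chart_source C2 x) hx h

theorem At1.chart {n : WithTop ℕ∞} {κ : ℤ} {s : X → Fin 2 → V} {x : X} (h : At1 n κ s x) {e : Ch X}
    (he : e ∈ atlas C2 X) (hx : x ∈ e.source) : ContDiffAt ℝ n (loc1 κ e s) (e x) :=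
  loc1_contDiffAt_change he (chart_mem_atlas C2 x) hx (mem_chart_source C2 x) h

theorem at1_of_chart {n : WithTop ℕ∞} {κ : ℤ} {s : X → Fin 2 → V} {x : X} {e : Ch X}
    (he : e ∈ atlas C2 X) (hx : x ∈ e.source) (h : ContDiffAt ℝ n (loc1 κ e s) (e x)) :
    At1 n κ s x :=
  loc1_contDiffAt_change (chart_mem_atlas C2 x) he (mem_chart_source C2 x) hx h

theorem At2.chart {n : WithTop ℕ∞} {κ : ℤ} {s : X → V} {x : X} (h : At2 n κ s x) {e : Ch X}
    (he : e ∈ atlas C2 X) (hx : x ∈ e.source) : ContDiffAt ℝ n (loc2 κ e s) (e x) :=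
  loc2_contDiffAt_change he (chart_mem_atlas C2 x) hx (mem_chart_source C2 x) h

theorem at2_of_chart {n : WithTop ℕ∞} {κ : ℤ} {s : X → V} {x : X} {e : Ch X}
    (he : e ∈ atlas C2 X) (hx : x ∈ e.source) (h : ContDiffAt ℝ n (loc2 κ e s) (e x)) :
    At2 n κ s x :=
  loc2_contDiffAt_change (chart_mem_atlas C2 x) he (mem_chart_source C2 x) hx h

theorem reg0_iff_at {n : WithTop ℕ∞} {κ : ℤ} {s : X → V} : Reg0 n κ s ↔ ∀ x, At0 n κ s x :=
  reg0_iff

theorem reg1_iff_at {n : WithTop ℕ∞} {κ : ℤ} {s : X → Fin 2 → V} :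
    Reg1 n κ s ↔ ∀ x, At1 n κ s x := reg1_iff

theorem reg2_iff_at {n : WithTop ℕ∞} {κ : ℤ} {s : X → V} : Reg2 n κ s ↔ ∀ x, At2 n κ s x :=
  reg2_iff

theorem Reg0.at {n : WithTop ℕ∞} {κ : ℤ} {s : X → V} (h : Reg0 n κ s) (x : X) : At0 n κ s x :=
  reg0_iff.1 h x

theorem Reg1.at {n : WithTop ℕ∞} {κ : ℤ} {s : X → Fin 2 → V} (h : Reg1 n κ s) (x : X) :
    At1 n κ s x := reg1_iff.1 h x

theorem Reg2.at {n : WithTop ℕ∞} {κ : ℤ} {s : X → V} (h : Reg2 n κ s) (x : X) : At2 n κ s x :=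
  reg2_iff.1 h x

/-- `C^n` (finite `n`) is an open condition -/
theorem At0.eventually {n : WithTop ℕ∞} {κ : ℤ} {s : X → V} {x : X} (h : At0 n κ s x)
    (hn : n ≠ ∞) : ∀ᶠ y in 𝓝 x, At0 n κ s y := by
  have h1 := ContDiffAt.eventually h hn
  have hx := mem_chart_source C2 x
  filter_upwards [((chartAt C2 x).continuousAt hx).eventually h1,
    (chartAt C2 x).open_source.mem_nhds hx] with y hy hys
  exact at0_of_chart (chart_mem_atlas C2 x) hys hy

theorem At1.eventually {n : WithTop ℕ∞} {κ : ℤ} {s : X → Fin 2 → V} {x : X} (h : At1 n κ s x)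
    (hn : n ≠ ∞) : ∀ᶠ y in 𝓝 x, At1 n κ s y := by
  have h1 := ContDiffAt.eventually h hn
  have hx := mem_chart_source C2 x
  filter_upwards [((chartAt C2 x).continuousAt hx).eventually h1,
    (chartAt C2 x).open_source.mem_nhds hx] with y hy hys
  exact at1_of_chart (chart_mem_atlas C2 x) hys hy

theorem At2.eventually {n : WithTop ℕ∞} {κ : ℤ} {s : X → V} {x : X} (h : At2 n κ s x)
    (hn : n ≠ ∞) : ∀ᶠ y in 𝓝 x, At2 n κ s y := by
  have h1 := ContDiffAt.eventually h hn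
  have hx := mem_chart_source C2 x
  filter_upwards [((chartAt C2 x).continuousAt hx).eventually h1,
    (chartAt C2 x).open_source.mem_nhds hx] with y hy hys
  exact at2_of_chart (chart_mem_atlas C2 x) hys hy

/-- `∂̄` loses one derivative -/
theorem At0.dbar {m n : WithTop ℕ∞} {κ : ℤ} {s : X → V} {x : X} (h : At0 n κ s x)
    (hmn : m + 1 ≤ n) : At1 m κ (dbar0 κ s) x := by
  have hx := mem_chart_source C2 x
  have h1n : (1 : WithTop ℕ∞) ≤ n := le_trans (by simp) hmn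
  have h1 : At0 1 κ s x := h.of_le h1n
  have h2 : ContDiffAt ℝ 1 (loc0 κ (chartAt C2 x) s) (chartAt C2 x x) := h1
  rw [At1, contDiffAt_pi]
  intro i
  have h3 : (fun z => loc1 κ (chartAt C2 x) (dbar0 κ s) z i) =ᶠ[𝓝 (chartAt C2 x x)]
      dzb i (loc0 κ (chartAt C2 x) s) := by
    filter_upwards [h2.eventually (by simp),
      (chartAt C2 x).open_target.mem_nhds (mem_chart_target C2 x)] with z hz hzt
    exact loc1_dbar0 (chart_mem_atlas C2 x) hzt (hz.differentiableAt (by simp)) i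
  exact (contDiffAt_dzb (h : ContDiffAt ℝ n _ _) hmn i).congr_of_eventuallyEq h3

theorem At1.dbar {m n : WithTop ℕ∞} {κ : ℤ} {s : X → Fin 2 → V} {x : X} (h : At1 n κ s x)
    (hmn : m + 1 ≤ n) : At2 m κ (dbar1 κ s) x := by
  have hx := mem_chart_source C2 x
  have h1n : (1 : WithTop ℕ∞) ≤ n := le_trans (by simp) hmn
  have h1 : At1 1 κ s x := h.of_le h1n
  have h2 : ContDiffAt ℝ 1 (loc1 κ (chartAt C2 x) s) (chartAt C2 x x) := h1
  have h3 : loc2 κ (chartAt C2 x) (dbar1 κ s) =ᶠ[𝓝 (chartAt C2 x x)]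
      fun z => dzb 0 (fun y => loc1 κ (chartAt C2 x) s y 1) z -
        dzb 1 (fun y => loc1 κ (chartAt C2 x) s y 0) z := by
    filter_upwards [h2.eventually (by simp),
      (chartAt C2 x).open_target.mem_nhds (mem_chart_target C2 x)] with z hz hzt
    exact loc2_dbar1 (chart_mem_atlas C2 x) hzt (hz.differentiableAt (by simp))
  have h4 : ∀ i, ContDiffAt ℝ n (fun y => loc1 κ (chartAt C2 x) s y i) (chartAt C2 x x) :=
    fun i => contDiffAt_pi.1 h i
  exact ((contDiffAt_dzb (h4 1) hmn 0).sub (contDiffAt_dzb (h4 0) hmn 1)).congr_of_eventuallyEq h3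

theorem Reg0.dbar {m n : WithTop ℕ∞} {κ : ℤ} {s : X → V} (h : Reg0 n κ s) (hmn : m + 1 ≤ n) :
    Reg1 m κ (dbar0 κ s) := reg1_iff.2 fun x => (h.at x).dbar hmn

theorem Reg1.dbar {m n : WithTop ℕ∞} {κ : ℤ} {s : X → Fin 2 → V} (h : Reg1 n κ s)
    (hmn : m + 1 ≤ n) : Reg2 m κ (dbar1 κ s) := reg2_iff.2 fun x => (h.at x).dbar hmn

theorem infty_add_one_le : (∞ : WithTop ℕ∞) + 1 ≤ ∞ := by
  simp

/-- `∂̄² = 0` -/
theorem dbar1_dbar0 {κ : ℤ} {s : X → V} {x : X} (h : At0 2 κ s x) :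
    dbar1 κ (dbar0 κ s) x = 0 := by
  have h2 : ContDiffAt ℝ 2 (loc0 κ (chartAt C2 x) s) (chartAt C2 x x) := h
  have h3 : ∀ i, (fun z => loc1 κ (chartAt C2 x) (dbar0 κ s) z i) =ᶠ[𝓝 (chartAt C2 x x)]
      dzb i (loc0 κ (chartAt C2 x) s) := by
    intro i
    filter_upwards [(h2.of_le (m := 1) (by norm_num)).eventually (by simp),
      (chartAt C2 x).open_target.mem_nhds (mem_chart_target C2 x)] with z hz hzt
    exact loc1_dbar0 (chart_mem_atlas C2 x) hzt (hz.differentiableAt (by simp)) i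
  rw [dbar1, dzb_congr (h3 1), dzb_congr (h3 0), dzb_dzb_comm h2 0 1, sub_self]

/-! ### products -/

section bilin

variable (B : V →L[ℂ] W →L[ℂ] Z)

theorem loc0_bilin {κ₁ κ₂ : ℤ} {e : Ch X} (he : e ∈ atlas C2 X) {z : C2} (hz : z ∈ e.target)
    (s : X → V) (t : X → W) :
    loc0 (κ₁ + κ₂) e (fun y => B (s y) (t y)) z = B (loc0 κ₁ e s z) (loc0 κ₂ e t z) := by
  simp only [loc0, zpow_add₀ (jac_det_ne_zero he (e.map_target hz)), map_smul,
    smul_apply, smul_smul]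
  rw [mul_comm]

theorem loc1_bilin {κ₁ κ₂ : ℤ} {e : Ch X} (he : e ∈ atlas C2 X) {z : C2} (hz : z ∈ e.target)
    (s : X → V) (t : X → Fin 2 → W) (i : Fin 2) :
    loc1 (κ₁ + κ₂) e (fun y i => B (s y) (t y i)) z i = B (loc0 κ₁ e s z) (loc1 κ₂ e t z i) := by
  simp only [loc0, loc1, zpow_add₀ (jac_det_ne_zero he (e.map_target hz)), map_smul,
    smul_apply, smul_smul, map_sum, Finset.smul_sum]
  refine Finset.sum_congr rfl fun p _ => ?_
  congr 1
  ring

theorem loc1_bilin' {κ₁ κ₂ : ℤ} {e : Ch X} (he : e ∈ atlas C2 X) {z : C2} (hz : z ∈ e.target)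
    (s : X → Fin 2 → V) (t : X → W) (i : Fin 2) :
    loc1 (κ₁ + κ₂) e (fun y i => B (s y i) (t y)) z i = B (loc1 κ₁ e s z i) (loc0 κ₂ e t z) := by
  simp only [loc0, loc1, zpow_add₀ (jac_det_ne_zero he (e.map_target hz)), map_smul,
    smul_apply, smul_smul, map_sum, sum_apply, Finset.smul_sum]
  refine Finset.sum_congr rfl fun p _ => ?_
  congr 1
  ring

theorem loc2_bilin {κ₁ κ₂ : ℤ} {e : Ch X} (he : e ∈ atlas C2 X) {z : C2} (hz : z ∈ e.target)
    (s : X → V) (t : X → W) :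
    loc2 (κ₁ + κ₂) e (fun y => B (s y) (t y)) z = B (loc0 κ₁ e s z) (loc2 κ₂ e t z) := by
  simp only [loc0, loc2, zpow_add₀ (jac_det_ne_zero he (e.map_target hz)), map_smul,
    smul_apply, smul_smul]
  congr 1
  ring

theorem loc2_bilin' {κ₁ κ₂ : ℤ} {e : Ch X} (he : e ∈ atlas C2 X) {z : C2} (hz : z ∈ e.target)
    (s : X → V) (t : X → W) :
    loc2 (κ₁ + κ₂) e (fun y => B (s y) (t y)) z = B (loc2 κ₁ e s z) (loc0 κ₂ e t z) := by
  simp only [loc0, loc2, zpow_add₀ (jac_det_ne_zero he (e.map_target hz)), map_smul,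
    smul_apply, smul_smul]
  congr 1
  ring

/-- wedge product of `(0,1)`-forms -/
theorem loc2_bilin11 {κ₁ κ₂ : ℤ} {e : Ch X} (he : e ∈ atlas C2 X) {z : C2} (hz : z ∈ e.target)
    (s : X → Fin 2 → V) (t : X → Fin 2 → W) :
    loc2 (κ₁ + κ₂) e (fun y => B (s y 0) (t y 1) - B (s y 1) (t y 0)) z =
      B (loc1 κ₁ e s z 0) (loc1 κ₂ e t z 1) - B (loc1 κ₁ e s z 1) (loc1 κ₂ e t z 0) := by
  have hd : (jac e (e.symm z)).det ^ (κ₁ + κ₂) =
      (jac e (e.symm z)).det ^ κ₁ * (jac e (e.symm z)).det ^ κ₂ :=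
    zpow_add₀ (jac_det_ne_zero he (e.map_target hz)) _ _
  have hd2 : conj (jac e (e.symm z)).det = conj (jac e (e.symm z) 0 0) *
      conj (jac e (e.symm z) 1 1) - conj (jac e (e.symm z) 0 1) * conj (jac e (e.symm z) 1 0) := by
    rw [Matrix.det_fin_two, map_sub, map_mul, map_mul]
  simp only [loc1, loc2, hd, hd2, map_smul, smul_apply, map_sum, sum_apply, Fin.sum_univ_two,
    map_add, add_apply]
  module

variable {B}

theorem At0.bilin {n : WithTop ℕ∞} {κ₁ κ₂ : ℤ} {s : X → V} {t : X → W} {x : X}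
    (hs : At0 n κ₁ s x) (ht : At0 n κ₂ t x) : At0 n (κ₁ + κ₂) (fun y => B (s y) (t y)) x := by
  have h1 : loc0 (κ₁ + κ₂) (chartAt C2 x) (fun y => B (s y) (t y)) =ᶠ[𝓝 (chartAt C2 x x)]
      fun z => B (loc0 κ₁ (chartAt C2 x) s z) (loc0 κ₂ (chartAt C2 x) t z) := by
    filter_upwards [(chartAt C2 x).open_target.mem_nhds (mem_chart_target C2 x)] with z hz
    exact loc0_bilin B (chart_mem_atlas C2 x) hz s t
  have h2 := (B.bilinearRestrictScalars ℝ).isBoundedBilinearMap.contDiff (n := n)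
  refine ContDiffAt.congr_of_eventuallyEq ?_ h1
  exact h2.contDiffAt.comp (chartAt C2 x x) (ContDiffAt.prodMk hs ht)

theorem At1.bilin {n : WithTop ℕ∞} {κ₁ κ₂ : ℤ} {s : X → V} {t : X → Fin 2 → W} {x : X}
    (hs : At0 n κ₁ s x) (ht : At1 n κ₂ t x) :
    At1 n (κ₁ + κ₂) (fun y i => B (s y) (t y i)) x := by
  rw [At1, contDiffAt_pi]
  intro i
  have h1 : (fun z => loc1 (κ₁ + κ₂) (chartAt C2 x) (fun y i => B (s y) (t y i)) z i)
      =ᶠ[𝓝 (chartAt C2 x x)]
      fun z => B (loc0 κ₁ (chartAt C2 x) s z) (loc1 κ₂ (chartAt C2 x) t z i) := by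
    filter_upwards [(chartAt C2 x).open_target.mem_nhds (mem_chart_target C2 x)] with z hz
    exact loc1_bilin B (chart_mem_atlas C2 x) hz s t i
  have h2 := (B.bilinearRestrictScalars ℝ).isBoundedBilinearMap.contDiff (n := n)
  refine ContDiffAt.congr_of_eventuallyEq ?_ h1
  exact h2.contDiffAt.comp (chartAt C2 x x) (ContDiffAt.prodMk hs (contDiffAt_pi.1 ht i))

theorem At1.bilin' {n : WithTop ℕ∞} {κ₁ κ₂ : ℤ} {s : X → Fin 2 → V} {t : X → W} {x : X}
    (hs : At1 n κ₁ s x) (ht : At0 n κ₂ t x) :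
    At1 n (κ₁ + κ₂) (fun y i => B (s y i) (t y)) x := by
  have h := At1.bilin (B := B.flip) ht hs
  rw [add_comm] at h
  exact h

theorem At2.bilin {n : WithTop ℕ∞} {κ₁ κ₂ : ℤ} {s : X → V} {t : X → W} {x : X}
    (hs : At0 n κ₁ s x) (ht : At2 n κ₂ t x) : At2 n (κ₁ + κ₂) (fun y => B (s y) (t y)) x := by
  have h1 : loc2 (κ₁ + κ₂) (chartAt C2 x) (fun y => B (s y) (t y)) =ᶠ[𝓝 (chartAt C2 x x)]
      fun z => B (loc0 κ₁ (chartAt C2 x) s z) (loc2 κ₂ (chartAt C2 x) t z) := by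
    filter_upwards [(chartAt C2 x).open_target.mem_nhds (mem_chart_target C2 x)] with z hz
    exact loc2_bilin B (chart_mem_atlas C2 x) hz s t
  have h2 := (B.bilinearRestrictScalars ℝ).isBoundedBilinearMap.contDiff (n := n)
  refine ContDiffAt.congr_of_eventuallyEq ?_ h1
  exact h2.contDiffAt.comp (chartAt C2 x x) (ContDiffAt.prodMk hs ht)

theorem At2.bilin' {n : WithTop ℕ∞} {κ₁ κ₂ : ℤ} {s : X → V} {t : X → W} {x : X}
    (hs : At2 n κ₁ s x) (ht : At0 n κ₂ t x) : At2 n (κ₁ + κ₂) (fun y => B (s y) (t y)) x := by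
  have h := At2.bilin (B := B.flip) ht hs
  rw [add_comm] at h
  exact h

theorem At2.bilin11 {n : WithTop ℕ∞} {κ₁ κ₂ : ℤ} {s : X → Fin 2 → V} {t : X → Fin 2 → W} {x : X}
    (hs : At1 n κ₁ s x) (ht : At1 n κ₂ t x) :
    At2 n (κ₁ + κ₂) (fun y => B (s y 0) (t y 1) - B (s y 1) (t y 0)) x := by
  have h1 : loc2 (κ₁ + κ₂) (chartAt C2 x) (fun y => B (s y 0) (t y 1) - B (s y 1) (t y 0))
      =ᶠ[𝓝 (chartAt C2 x x)]
      fun z => B (loc1 κ₁ (chartAt C2 x) s z 0) (loc1 κ₂ (chartAt C2 x) t z 1) -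
        B (loc1 κ₁ (chartAt C2 x) s z 1) (loc1 κ₂ (chartAt C2 x) t z 0) := by
    filter_upwards [(chartAt C2 x).open_target.mem_nhds (mem_chart_target C2 x)] with z hz
    exact loc2_bilin11 B (chart_mem_atlas C2 x) hz s t
  have h2 := (B.bilinearRestrictScalars ℝ).isBoundedBilinearMap.contDiff (n := n)
  refine ContDiffAt.congr_of_eventuallyEq ?_ h1
  have h3 : ∀ i j, ContDiffAt ℝ n (fun z => B (loc1 κ₁ (chartAt C2 x) s z i)
      (loc1 κ₂ (chartAt C2 x) t z j)) (chartAt C2 x x) := fun i j =>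
    h2.contDiffAt.comp (chartAt C2 x x) (ContDiffAt.prodMk (contDiffAt_pi.1 hs i)
      (contDiffAt_pi.1 ht j))
  exact (h3 0 1).sub (h3 1 0)

theorem fderiv_bilin {f : C2 → V} {g : C2 → W} {z : C2} (hf : DifferentiableAt ℝ f z)
    (hg : DifferentiableAt ℝ g z) (v : C2) :
    fderiv ℝ (fun y => B (f y) (g y)) z v =
      B (f z) (fderiv ℝ g z v) + B (fderiv ℝ f z v) (g z) := by
  have h1 : fderiv ℝ (fun y => B (f y) (g y)) z =
      (B.bilinearRestrictScalars ℝ).precompR C2 (f z) (fderiv ℝ g z) +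
        (B.bilinearRestrictScalars ℝ).precompL C2 (fderiv ℝ f z) (g z) :=
    (B.bilinearRestrictScalars ℝ).fderiv_of_bilinear hf hg
  rw [h1]
  rfl

/-- Leibniz rule on `C2` for a bilinear map -/
theorem dzb_bilin {f : C2 → V} {g : C2 → W} {z : C2} (hf : DifferentiableAt ℝ f z)
    (hg : DifferentiableAt ℝ g z) (j : Fin 2) :
    dzb j (fun y => B (f y) (g y)) z = B (dzb j f z) (g z) + B (f z) (dzb j g z) := by
  simp only [dzb, fderiv_bilin hf hg, map_smul, map_add, smul_apply, smul_add, add_apply]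
  abel

theorem dz_bilin {f : C2 → V} {g : C2 → W} {z : C2} (hf : DifferentiableAt ℝ f z)
    (hg : DifferentiableAt ℝ g z) (j : Fin 2) :
    dz j (fun y => B (f y) (g y)) z = B (dz j f z) (g z) + B (f z) (dz j g z) := by
  simp only [dz, fderiv_bilin hf hg, map_smul, map_add, map_sub, smul_apply, smul_add, smul_sub,
    add_apply, sub_apply]
  abel

/-- LEIBNIZ RULE, degree `0` -/
theorem dbar0_bilin {κ₁ κ₂ : ℤ} {s : X → V} {t : X → W} {x : X} (hs : At0 1 κ₁ s x)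
    (ht : At0 1 κ₂ t x) (i : Fin 2) :
    dbar0 (κ₁ + κ₂) (fun y => B (s y) (t y)) x i =
      B (dbar0 κ₁ s x i) (t x) + B (s x) (dbar0 κ₂ t x i) := by
  have h1 : loc0 (κ₁ + κ₂) (chartAt C2 x) (fun y => B (s y) (t y)) =ᶠ[𝓝 (chartAt C2 x x)]
      fun z => B (loc0 κ₁ (chartAt C2 x) s z) (loc0 κ₂ (chartAt C2 x) t z) := by
    filter_upwards [(chartAt C2 x).open_target.mem_nhds (mem_chart_target C2 x)] with z hz
    exact loc0_bilin B (chart_mem_atlas C2 x) hz s t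
  rw [dbar0, dzb_congr h1, dzb_bilin (hs.diff le_rfl) (ht.diff le_rfl), loc0_chartAt, loc0_chartAt]
  rfl

/-- LEIBNIZ RULE, function times `(0,1)`-form -/
theorem dbar1_bilin {κ₁ κ₂ : ℤ} {s : X → V} {t : X → Fin 2 → W} {x : X} (hs : At0 1 κ₁ s x)
    (ht : At1 1 κ₂ t x) :
    dbar1 (κ₁ + κ₂) (fun y i => B (s y) (t y i)) x =
      (B (dbar0 κ₁ s x 0) (t x 1) - B (dbar0 κ₁ s x 1) (t x 0)) + B (s x) (dbar1 κ₂ t x) := by
  have h1 : ∀ i, (fun z => loc1 (κ₁ + κ₂) (chartAt C2 x) (fun y i => B (s y) (t y i)) z i)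
      =ᶠ[𝓝 (chartAt C2 x x)]
      fun z => B (loc0 κ₁ (chartAt C2 x) s z) (loc1 κ₂ (chartAt C2 x) t z i) := by
    intro i
    filter_upwards [(chartAt C2 x).open_target.mem_nhds (mem_chart_target C2 x)] with z hz
    exact loc1_bilin B (chart_mem_atlas C2 x) hz s t i
  rw [dbar1, dzb_congr (h1 1), dzb_congr (h1 0), dzb_bilin (hs.diff le_rfl) (ht.diff' le_rfl 1),
    dzb_bilin (hs.diff le_rfl) (ht.diff' le_rfl 0), loc0_chartAt, loc1_chartAt, dbar0, dbar0,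
    dbar1, map_sub]
  abel

/-- LEIBNIZ RULE, `(0,1)`-form times function -/
theorem dbar1_bilin' {κ₁ κ₂ : ℤ} {s : X → Fin 2 → V} {t : X → W} {x : X} (hs : At1 1 κ₁ s x)
    (ht : At0 1 κ₂ t x) :
    dbar1 (κ₁ + κ₂) (fun y i => B (s y i) (t y)) x =
      B (dbar1 κ₁ s x) (t x) - (B (s x 0) (dbar0 κ₂ t x 1) - B (s x 1) (dbar0 κ₂ t x 0)) := by
  have h := dbar1_bilin (B := B.flip) ht hs
  simp only [ContinuousLinearMap.flip_apply] at h
  rw [add_comm κ₁ κ₂, h]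
  abel

end bilin

/-! ### scalar multiplication -/

section smul

theorem At0.smul' {n : WithTop ℕ∞} {κ₁ κ₂ : ℤ} {f : X → ℂ} {s : X → V} {x : X}
    (hf : At0 n κ₁ f x) (hs : At0 n κ₂ s x) : At0 n (κ₁ + κ₂) (fun y => f y • s y) x :=
  At0.bilin (B := ContinuousLinearMap.lsmul ℂ ℂ) hf hs

theorem At0.smul {n : WithTop ℕ∞} {κ : ℤ} {f : X → ℂ} {s : X → V} {x : X}
    (hf : At0 n 0 f x) (hs : At0 n κ s x) : At0 n κ (fun y => f y • s y) x := by
  simpa using hf.smul' hs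

theorem At0.mul {n : WithTop ℕ∞} {κ : ℤ} {f s : X → ℂ} {x : X}
    (hf : At0 n 0 f x) (hs : At0 n κ s x) : At0 n κ (fun y => f y * s y) x := by
  simpa using hf.smul hs

theorem At1.smul' {n : WithTop ℕ∞} {κ₁ κ₂ : ℤ} {f : X → ℂ} {s : X → Fin 2 → V} {x : X}
    (hf : At0 n κ₁ f x) (hs : At1 n κ₂ s x) : At1 n (κ₁ + κ₂) (fun y i => f y • s y i) x :=
  At1.bilin (B := ContinuousLinearMap.lsmul ℂ ℂ) hf hs

theorem At1.smul {n : WithTop ℕ∞} {κ : ℤ} {f : X → ℂ} {s : X → Fin 2 → V} {x : X}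
    (hf : At0 n 0 f x) (hs : At1 n κ s x) : At1 n κ (fun y i => f y • s y i) x := by
  have := At1.smul' hf hs
  rwa [zero_add] at this

theorem At1.smul_right' {n : WithTop ℕ∞} {κ₁ κ₂ : ℤ} {a : X → Fin 2 → ℂ} {s : X → V} {x : X}
    (ha : At1 n κ₁ a x) (hs : At0 n κ₂ s x) : At1 n (κ₁ + κ₂) (fun y i => a y i • s y) x :=
  At1.bilin' (B := ContinuousLinearMap.lsmul ℂ ℂ) ha hs

theorem At1.smul_right {n : WithTop ℕ∞} {κ : ℤ} {a : X → Fin 2 → ℂ} {s : X → V} {x : X}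
    (ha : At1 n 0 a x) (hs : At0 n κ s x) : At1 n κ (fun y i => a y i • s y) x := by
  have := ha.smul_right' hs
  rwa [zero_add] at this

theorem At2.smul' {n : WithTop ℕ∞} {κ₁ κ₂ : ℤ} {f : X → ℂ} {s : X → V} {x : X}
    (hf : At0 n κ₁ f x) (hs : At2 n κ₂ s x) : At2 n (κ₁ + κ₂) (fun y => f y • s y) x :=
  At2.bilin (B := ContinuousLinearMap.lsmul ℂ ℂ) hf hs

theorem At2.smul {n : WithTop ℕ∞} {κ : ℤ} {f : X → ℂ} {s : X → V} {x : X}
    (hf : At0 n 0 f x) (hs : At2 n κ s x) : At2 n κ (fun y => f y • s y) x := by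
  have := At2.smul' hf hs
  rwa [zero_add] at this

theorem At2.wedge_smul' {n : WithTop ℕ∞} {κ₁ κ₂ : ℤ} {a : X → Fin 2 → ℂ} {w : X → Fin 2 → V}
    {x : X} (ha : At1 n κ₁ a x) (hw : At1 n κ₂ w x) :
    At2 n (κ₁ + κ₂) (fun y => a y 0 • w y 1 - a y 1 • w y 0) x :=
  At2.bilin11 (B := ContinuousLinearMap.lsmul ℂ ℂ) ha hw

theorem At2.wedge_smul {n : WithTop ℕ∞} {κ : ℤ} {a : X → Fin 2 → ℂ} {w : X → Fin 2 → V}
    {x : X} (ha : At1 n 0 a x) (hw : At1 n κ w x) :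
    At2 n κ (fun y => a y 0 • w y 1 - a y 1 • w y 0) x := by
  have := At2.wedge_smul' ha hw
  rwa [zero_add] at this

theorem dbar0_smul' {κ₁ κ₂ : ℤ} {f : X → ℂ} {s : X → V} {x : X} (hf : At0 1 κ₁ f x)
    (hs : At0 1 κ₂ s x) (i : Fin 2) :
    dbar0 (κ₁ + κ₂) (fun y => f y • s y) x i = dbar0 κ₁ f x i • s x + f x • dbar0 κ₂ s x i :=
  dbar0_bilin (B := ContinuousLinearMap.lsmul ℂ ℂ) hf hs i

theorem dbar0_smul {κ : ℤ} {f : X → ℂ} {s : X → V} {x : X} (hf : At0 1 0 f x)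
    (hs : At0 1 κ s x) (i : Fin 2) :
    dbar0 κ (fun y => f y • s y) x i = dbar0 0 f x i • s x + f x • dbar0 κ s x i := by
  have := dbar0_smul' hf hs i
  rwa [zero_add] at this

theorem dbar0_mul' {κ₁ κ₂ : ℤ} {f g : X → ℂ} {x : X} (hf : At0 1 κ₁ f x)
    (hg : At0 1 κ₂ g x) (i : Fin 2) :
    dbar0 (κ₁ + κ₂) (fun y => f y * g y) x i = dbar0 κ₁ f x i * g x + f x * dbar0 κ₂ g x i :=
  dbar0_smul' hf hg i

theorem dbar0_mul {κ : ℤ} {f g : X → ℂ} {x : X} (hf : At0 1 0 f x)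
    (hg : At0 1 κ g x) (i : Fin 2) :
    dbar0 κ (fun y => f y * g y) x i = dbar0 0 f x i * g x + f x * dbar0 κ g x i :=
  dbar0_smul hf hg i

theorem dbar1_smul' {κ₁ κ₂ : ℤ} {f : X → ℂ} {w : X → Fin 2 → V} {x : X} (hf : At0 1 κ₁ f x)
    (hw : At1 1 κ₂ w x) :
    dbar1 (κ₁ + κ₂) (fun y i => f y • w y i) x =
      (dbar0 κ₁ f x 0 • w x 1 - dbar0 κ₁ f x 1 • w x 0) + f x • dbar1 κ₂ w x :=
  dbar1_bilin (B := ContinuousLinearMap.lsmul ℂ ℂ) hf hw

theorem dbar1_smul {κ : ℤ} {f : X → ℂ} {w : X → Fin 2 → V} {x : X} (hf : At0 1 0 f x)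
    (hw : At1 1 κ w x) :
    dbar1 κ (fun y i => f y • w y i) x =
      (dbar0 0 f x 0 • w x 1 - dbar0 0 f x 1 • w x 0) + f x • dbar1 κ w x := by
  have := dbar1_smul' hf hw
  rwa [zero_add] at this

theorem dbar1_smul_right' {κ₁ κ₂ : ℤ} {a : X → Fin 2 → ℂ} {s : X → V} {x : X} (ha : At1 1 κ₁ a x)
    (hs : At0 1 κ₂ s x) :
    dbar1 (κ₁ + κ₂) (fun y i => a y i • s y) x =
      dbar1 κ₁ a x • s x - (a x 0 • dbar0 κ₂ s x 1 - a x 1 • dbar0 κ₂ s x 0) :=
  dbar1_bilin' (B := ContinuousLinearMap.lsmul ℂ ℂ) ha hs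

theorem dbar1_smul_right {κ : ℤ} {a : X → Fin 2 → ℂ} {s : X → V} {x : X} (ha : At1 1 0 a x)
    (hs : At0 1 κ s x) :
    dbar1 κ (fun y i => a y i • s y) x =
      dbar1 0 a x • s x - (a x 0 • dbar0 κ s x 1 - a x 1 • dbar0 κ s x 0) := by
  have := dbar1_smul_right' ha hs
  rwa [zero_add] at this

end smul

end chart

end Vale.Agent.P267.FL
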