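import Vale.Agent.P267.H399.Wirt

/-! P267 / H399: chart changes and the `∂̄` operators in charts. -/

set_option linter.unusedVariables false
set_option linter.unusedSectionVars false

open scoped Manifold ContDiff ComplexConjugate Matrix ComplexOrder
open MeasureTheory Set Filter Topology

noncomputable section

namespace Vale.Agent.P267.FL

variable {X : Type*} [TopologicalSpace X] [ChartedSpace C2 X]

/-! ### transition maps -/

section trans

variable [IsManifold 𝓘(ℂ, C2) ω X]

theorem trans_contDiffOn {e e' : Ch X} (he : e ∈ atlas C2 X) (he' : e' ∈ atlas C2 X) :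
    ContDiffOn ℂ ω (fun z => e' (e.symm z)) (e.target ∩ e.symm ⁻¹' e'.source) := by
  have h := HasGroupoid.compatible (G := contDiffGroupoid ω 𝓘(ℂ, C2)) he he'
  rw [contDiffGroupoid, mem_groupoid_of_pregroupoid] at h
  have h1 := h.1
  simp only [contDiffPregroupoid] at h1
  have h2 : ContDiffOn ℂ ω ((e' : X → C2) ∘ (e.symm : C2 → X))
      (e.target ∩ e.symm ⁻¹' e'.source) := by
    simpa using h1
  exact h2

theorem isOpen_trans (e e' : Ch X) : IsOpen (e.target ∩ e.symm ⁻¹' e'.source) :=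
  e.symm.isOpen_inter_preimage e'.open_source

theorem mem_trans {e e' : Ch X} {x : X} (hx : x ∈ e.source) (hx' : x ∈ e'.source) :
    e x ∈ e.target ∩ e.symm ⁻¹' e'.source :=
  ⟨e.map_source hx, by simpa [e.left_inv hx] using hx'⟩

theorem trans_analyticAt {e e' : Ch X} (he : e ∈ atlas C2 X) (he' : e' ∈ atlas C2 X) {x : X}
    (hx : x ∈ e.source) (hx' : x ∈ e'.source) : AnalyticAt ℂ (fun z => e' (e.symm z)) (e x) := by
  have h := (trans_contDiffOn he he').contDiffAt
    ((isOpen_trans e e').mem_nhds (mem_trans hx hx'))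
  exact h.analyticAt

theorem trans_analyticAt' {e e' : Ch X} (he : e ∈ atlas C2 X) (he' : e' ∈ atlas C2 X) {z : C2}
    (hz : z ∈ e.target) (hz' : e.symm z ∈ e'.source) :
    AnalyticAt ℂ (fun z => e' (e.symm z)) z := by
  have := trans_analyticAt he he' (e.map_target hz) hz'
  rwa [e.right_inv hz] at this

theorem trans_differentiableAt {e e' : Ch X} (he : e ∈ atlas C2 X) (he' : e' ∈ atlas C2 X) {x : X}
    (hx : x ∈ e.source) (hx' : x ∈ e'.source) :
    DifferentiableAt ℂ (fun z => e' (e.symm z)) (e x) :=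
  (trans_analyticAt he he' hx hx').differentiableAt

theorem comp_analyticAt {g : C2 → C2} {z : C2} (h : AnalyticAt ℂ g z) (p : Fin 2) :
    AnalyticAt ℂ (fun y => g y p) z :=
  ((ContinuousLinearMap.proj (R := ℂ) (φ := fun _ : Fin 2 => ℂ) p).analyticAt _).comp h

theorem jacM_apply {e e' : Ch X} (he : e ∈ atlas C2 X) (he' : e' ∈ atlas C2 X) {x : X}
    (hx : x ∈ e.source) (hx' : x ∈ e'.source) (p i : Fin 2) :
    jacM e e' x p i = (fderiv ℂ (fun z => e' (e.symm z)) (e x) (Pi.single i 1)) p := by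
  have h := trans_differentiableAt he he' hx hx'
  have := dz_clm (ContinuousLinearMap.proj (R := ℂ) (φ := fun _ : Fin 2 => ℂ) p)
    (h.restrictScalars ℝ) i
  simp only [ContinuousLinearMap.proj_apply] at this
  rw [jacM, Matrix.of_apply, this, dz_of_hol h]

theorem jacM_mulVec {e e' : Ch X} (he : e ∈ atlas C2 X) (he' : e' ∈ atlas C2 X) {x : X}
    (hx : x ∈ e.source) (hx' : x ∈ e'.source) (v : C2) :
    (jacM e e' x).mulVec v = fderiv ℂ (fun z => e' (e.symm z)) (e x) v := by
  conv_rhs => rw [c2_decomp v]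
  ext p
  rw [Matrix.mulVec, dotProduct, Fin.sum_univ_two, jacM_apply he he' hx hx',
    jacM_apply he he' hx hx', map_add, map_smul, map_smul]
  simp only [Pi.add_apply, Pi.smul_apply, smul_eq_mul]
  ring

theorem jacM_self {e : Ch X} {x : X} (hx : x ∈ e.source) : jacM e e x = 1 := by
  ext p i
  have h : (fun z => e (e.symm z) p) =ᶠ[𝓝 (e x)] fun z => z p := by
    filter_upwards [e.open_target.mem_nhds (e.map_source hx)] with z hz
    rw [e.right_inv hz]
  rw [jacM, Matrix.of_apply, dz_congr h]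
  have h2 : DifferentiableAt ℂ (fun z : C2 => z p) (e x) :=
    (ContinuousLinearMap.proj (R := ℂ) (φ := fun _ : Fin 2 => ℂ) p).differentiableAt
  rw [dz_of_hol h2]
  have h3 : fderiv ℂ (fun z : C2 => z p) (e x) = ContinuousLinearMap.proj p :=
    (ContinuousLinearMap.proj (R := ℂ) (φ := fun _ : Fin 2 => ℂ) p).fderiv
  rw [h3]
  simp [Matrix.one_apply, Pi.single_apply]

theorem jacM_comp {e e' e'' : Ch X} (he : e ∈ atlas C2 X) (he' : e' ∈ atlas C2 X)
    (he'' : e'' ∈ atlas C2 X) {x : X} (hx : x ∈ e.source) (hx' : x ∈ e'.source)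
    (hx'' : x ∈ e''.source) : jacM e e'' x = jacM e' e'' x * jacM e e' x := by
  have h1 : (fun z => e'' (e.symm z)) =ᶠ[𝓝 (e x)]
      fun z => (fun w => e'' (e'.symm w)) ((fun y => e' (e.symm y)) z) := by
    filter_upwards [(isOpen_trans e e').mem_nhds (mem_trans hx hx')] with z hz
    rw [e'.left_inv hz.2]
  have h2 : fderiv ℂ (fun z => e'' (e.symm z)) (e x) =
      (fderiv ℂ (fun w => e'' (e'.symm w)) (e' x)).comp (fderiv ℂ (fun y => e' (e.symm y)) (e x)) := by
    rw [h1.fderiv_eq]
    have h3 : DifferentiableAt ℂ (fun w => e'' (e'.symm w)) ((fun y => e' (e.symm y)) (e x)) := by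
      simp only [e.left_inv hx]
      exact trans_differentiableAt he' he'' hx' hx''
    rw [fderiv_fun_comp (e x) h3 (trans_differentiableAt he he' hx hx')]
    simp only [e.left_inv hx]
  have h4 : ∀ v, (jacM e e'' x).mulVec v = (jacM e' e'' x * jacM e e' x).mulVec v := by
    intro v
    rw [← Matrix.mulVec_mulVec, jacM_mulVec he he'' hx hx'', jacM_mulVec he he' hx hx',
      jacM_mulVec he' he'' hx' hx'', h2]
    rfl
  exact Matrix.ext_of_mulVec_single fun i => h4 _

theorem jacM_mul_inv {e e' : Ch X} (he : e ∈ atlas C2 X) (he' : e' ∈ atlas C2 X) {x : X}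
    (hx : x ∈ e.source) (hx' : x ∈ e'.source) : jacM e' e x * jacM e e' x = 1 := by
  rw [← jacM_comp he he' he hx hx' hx, jacM_self hx]

theorem jacM_det_ne_zero {e e' : Ch X} (he : e ∈ atlas C2 X) (he' : e' ∈ atlas C2 X) {x : X}
    (hx : x ∈ e.source) (hx' : x ∈ e'.source) : (jacM e e' x).det ≠ 0 := by
  intro h
  have h1 := congrArg Matrix.det (jacM_mul_inv he he' hx hx')
  rw [Matrix.det_mul, h, mul_zero, Matrix.det_one] at h1
  exact zero_ne_one h1

theorem jac_eq {e e' : Ch X} (he : e ∈ atlas C2 X) (he' : e' ∈ atlas C2 X) {x : X}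
    (hx : x ∈ e.source) (hx' : x ∈ e'.source) : jac e x = jac e' x * jacM e e' x :=
  jacM_comp he he' (chart_mem_atlas C2 x) hx hx' (mem_chart_source C2 x)

theorem jac_det_ne_zero {e : Ch X} (he : e ∈ atlas C2 X) {x : X} (hx : x ∈ e.source) :
    (jac e x).det ≠ 0 :=
  jacM_det_ne_zero he (chart_mem_atlas C2 x) hx (mem_chart_source C2 x)

@[simp] theorem jac_chartAt (x : X) : jac (chartAt C2 x) x = 1 := jacM_self (mem_chart_source C2 x)

/-- the Jacobian matrix in the coordinates of `e`, near a point -/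
theorem jacM_eventually {e e' : Ch X} {x : X} (hx : x ∈ e.source) (p i : Fin 2) :
    (fun z => jacM e e' (e.symm z) p i) =ᶠ[𝓝 (e x)] dz i (fun z => e' (e.symm z) p) := by
  filter_upwards [e.open_target.mem_nhds (e.map_source hx)] with z hz
  rw [jacM, Matrix.of_apply, e.right_inv hz]

theorem jacM_analyticAt {e e' : Ch X} (he : e ∈ atlas C2 X) (he' : e' ∈ atlas C2 X) {x : X}
    (hx : x ∈ e.source) (hx' : x ∈ e'.source) (p i : Fin 2) :
    AnalyticAt ℂ (fun z => jacM e e' (e.symm z) p i) (e x) :=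
  (hol_dz (comp_analyticAt (trans_analyticAt he he' hx hx') p) i).congr
    (jacM_eventually hx p i).symm

theorem det_analyticAt {e e' : Ch X} (he : e ∈ atlas C2 X) (he' : e' ∈ atlas C2 X) {x : X}
    (hx : x ∈ e.source) (hx' : x ∈ e'.source) :
    AnalyticAt ℂ (fun z => (jacM e e' (e.symm z)).det) (e x) := by
  simp only [Matrix.det_fin_two]
  exact ((jacM_analyticAt he he' hx hx' 0 0).mul (jacM_analyticAt he he' hx hx' 1 1)).sub
    ((jacM_analyticAt he he' hx hx' 0 1).mul (jacM_analyticAt he he' hx hx' 1 0))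

theorem detz_analyticAt {e e' : Ch X} (he : e ∈ atlas C2 X) (he' : e' ∈ atlas C2 X) {x : X}
    (hx : x ∈ e.source) (hx' : x ∈ e'.source) (κ : ℤ) :
    AnalyticAt ℂ (fun z => (jacM e e' (e.symm z)).det ^ κ) (e x) := by
  have h : (jacM e e' (e.symm (e x))).det ≠ 0 := by
    rw [e.left_inv hx]
    exact jacM_det_ne_zero he he' hx hx'
  exact (det_analyticAt he he' hx hx').zpow h

end trans

/-! ### values and change of charts -/

section loc

variable {V : Type*} [NormedAddCommGroup V] [NormedSpace ℂ V]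

theorem loc0_source {κ : ℤ} {e : Ch X} {x : X} (hx : x ∈ e.source) (s : X → V) :
    loc0 κ e s (e x) = (jac e x).det ^ κ • s x := by
  rw [loc0, e.left_inv hx]

theorem loc1_source {κ : ℤ} {e : Ch X} {x : X} (hx : x ∈ e.source) (a : X → Fin 2 → V) (i : Fin 2) :
    loc1 κ e a (e x) i = (jac e x).det ^ κ • ∑ p, conj (jac e x p i) • a x p := by
  rw [loc1, e.left_inv hx]

theorem loc2_source {κ : ℤ} {e : Ch X} {x : X} (hx : x ∈ e.source) (b : X → V) :
    loc2 κ e b (e x) = (jac e x).det ^ κ • conj (jac e x).det • b x := by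
  rw [loc2, e.left_inv hx]

variable [IsManifold 𝓘(ℂ, C2) ω X]

@[simp] theorem loc0_chartAt (κ : ℤ) (s : X → V) (x : X) :
    loc0 κ (chartAt C2 x) s (chartAt C2 x x) = s x := by
  rw [loc0_source (mem_chart_source C2 x), jac_chartAt]
  simp

@[simp] theorem loc1_chartAt (κ : ℤ) (a : X → Fin 2 → V) (x : X) :
    loc1 κ (chartAt C2 x) a (chartAt C2 x x) = a x := by
  funext i
  rw [loc1_source (mem_chart_source C2 x), jac_chartAt]
  simp [Matrix.one_apply]

@[simp] theorem loc2_chartAt (κ : ℤ) (b : X → V) (x : X) :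
    loc2 κ (chartAt C2 x) b (chartAt C2 x x) = b x := by
  rw [loc2_source (mem_chart_source C2 x), jac_chartAt]
  simp

theorem loc0_change {κ : ℤ} {e e' : Ch X} (he : e ∈ atlas C2 X) (he' : e' ∈ atlas C2 X) {x : X}
    (hx : x ∈ e.source) (hx' : x ∈ e'.source) (s : X → V) :
    loc0 κ e s (e x) = (jacM e e' x).det ^ κ • loc0 κ e' s (e' x) := by
  rw [loc0_source hx, loc0_source hx', jac_eq he he' hx hx', Matrix.det_mul, mul_zpow, smul_smul,
    mul_comm]

theorem loc1_change {κ : ℤ} {e e' : Ch X} (he : e ∈ atlas C2 X) (he' : e' ∈ atlas C2 X) {x : X}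
    (hx : x ∈ e.source) (hx' : x ∈ e'.source) (a : X → Fin 2 → V) (i : Fin 2) :
    loc1 κ e a (e x) i =
      (jacM e e' x).det ^ κ • ∑ p, conj (jacM e e' x p i) • loc1 κ e' a (e' x) p := by
  rw [loc1_source hx, jac_eq he he' hx hx', Matrix.det_mul, mul_zpow]
  simp only [loc1_source hx', Matrix.mul_apply, Fin.sum_univ_two, map_add, map_mul]
  module

theorem loc2_change {κ : ℤ} {e e' : Ch X} (he : e ∈ atlas C2 X) (he' : e' ∈ atlas C2 X) {x : X}
    (hx : x ∈ e.source) (hx' : x ∈ e'.source) (b : X → V) :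
    loc2 κ e b (e x) =
      (jacM e e' x).det ^ κ • conj (jacM e e' x).det • loc2 κ e' b (e' x) := by
  rw [loc2_source hx, loc2_source hx', jac_eq he he' hx hx', Matrix.det_mul, mul_zpow, map_mul]
  module

/-! ### regularity -/

/-- transfer of `C^n` between charts -/
theorem loc0_contDiffAt_change {n : WithTop ℕ∞} {κ : ℤ} {e e' : Ch X} (he : e ∈ atlas C2 X)
    (he' : e' ∈ atlas C2 X) {x : X} (hx : x ∈ e.source) (hx' : x ∈ e'.source) {s : X → V}
    (h : ContDiffAt ℝ n (loc0 κ e' s) (e' x)) : ContDiffAt ℝ n (loc0 κ e s) (e x) := by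
  have h1 : loc0 κ e s =ᶠ[𝓝 (e x)] fun z => (jacM e e' (e.symm z)).det ^ κ •
      loc0 κ e' s (e' (e.symm z)) := by
    filter_upwards [(isOpen_trans e e').mem_nhds (mem_trans hx hx')] with z hz
    have := loc0_change (κ := κ) he he' (e.map_target hz.1) hz.2 s
    rwa [e.right_inv hz.1] at this
  refine ContDiffAt.congr_of_eventuallyEq ?_ h1
  have h2 : ContDiffAt ℝ n (fun z => (jacM e e' (e.symm z)).det ^ κ) (e x) :=
    ((detz_analyticAt he he' hx hx' κ).contDiffAt (n := n)).restrict_scalars ℝ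
  have h3 : ContDiffAt ℝ n (fun z => e' (e.symm z)) (e x) :=
    ((trans_analyticAt he he' hx hx').contDiffAt (n := n)).restrict_scalars ℝ
  refine h2.smul (ContDiffAt.comp (g := loc0 κ e' s) (e x) ?_ h3)
  simpa only [e.left_inv hx] using h

theorem loc1_contDiffAt_change {n : WithTop ℕ∞} {κ : ℤ} {e e' : Ch X} (he : e ∈ atlas C2 X)
    (he' : e' ∈ atlas C2 X) {x : X} (hx : x ∈ e.source) (hx' : x ∈ e'.source) {a : X → Fin 2 → V}
    (h : ContDiffAt ℝ n (loc1 κ e' a) (e' x)) : ContDiffAt ℝ n (loc1 κ e a) (e x) := by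
  rw [contDiffAt_pi]
  intro i
  have h1 : (fun z => loc1 κ e a z i) =ᶠ[𝓝 (e x)] fun z => (jacM e e' (e.symm z)).det ^ κ •
      ∑ p, conj (jacM e e' (e.symm z) p i) • loc1 κ e' a (e' (e.symm z)) p := by
    filter_upwards [(isOpen_trans e e').mem_nhds (mem_trans hx hx')] with z hz
    have := loc1_change (κ := κ) he he' (e.map_target hz.1) hz.2 a i
    rwa [e.right_inv hz.1] at this
  refine ContDiffAt.congr_of_eventuallyEq ?_ h1
  have h2 : ContDiffAt ℝ n (fun z => (jacM e e' (e.symm z)).det ^ κ) (e x) :=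
    ((detz_analyticAt he he' hx hx' κ).contDiffAt (n := n)).restrict_scalars ℝ
  have h3 : ContDiffAt ℝ n (fun z => e' (e.symm z)) (e x) :=
    ((trans_analyticAt he he' hx hx').contDiffAt (n := n)).restrict_scalars ℝ
  refine h2.smul (ContDiffAt.sum fun p _ => ?_)
  have h4 : ContDiffAt ℝ n (fun z => jacM e e' (e.symm z) p i) (e x) :=
    ((jacM_analyticAt he he' hx hx' p i).contDiffAt (n := n)).restrict_scalars ℝ
  have h5 : ContDiffAt ℝ n (fun z => conj (jacM e e' (e.symm z) p i)) (e x) :=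
    (Complex.conjCLE.contDiff.contDiffAt).comp (e x) h4
  refine h5.smul (ContDiffAt.comp (g := fun w => loc1 κ e' a w p) (e x) ?_ h3)
  have h6 := contDiffAt_pi.1 h p
  simpa only [e.left_inv hx] using h6

theorem loc2_contDiffAt_change {n : WithTop ℕ∞} {κ : ℤ} {e e' : Ch X} (he : e ∈ atlas C2 X)
    (he' : e' ∈ atlas C2 X) {x : X} (hx : x ∈ e.source) (hx' : x ∈ e'.source) {b : X → V}
    (h : ContDiffAt ℝ n (loc2 κ e' b) (e' x)) : ContDiffAt ℝ n (loc2 κ e b) (e x) := by
  have h1 : loc2 κ e b =ᶠ[𝓝 (e x)] fun z => (jacM e e' (e.symm z)).det ^ κ •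
      conj (jacM e e' (e.symm z)).det • loc2 κ e' b (e' (e.symm z)) := by
    filter_upwards [(isOpen_trans e e').mem_nhds (mem_trans hx hx')] with z hz
    have := loc2_change (κ := κ) he he' (e.map_target hz.1) hz.2 b
    rwa [e.right_inv hz.1] at this
  refine ContDiffAt.congr_of_eventuallyEq ?_ h1
  have h2 : ContDiffAt ℝ n (fun z => (jacM e e' (e.symm z)).det ^ κ) (e x) :=
    ((detz_analyticAt he he' hx hx' κ).contDiffAt (n := n)).restrict_scalars ℝ
  have h3 : ContDiffAt ℝ n (fun z => e' (e.symm z)) (e x) :=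
    ((trans_analyticAt he he' hx hx').contDiffAt (n := n)).restrict_scalars ℝ
  have h4 : ContDiffAt ℝ n (fun z => conj (jacM e e' (e.symm z)).det) (e x) :=
    (Complex.conjCLE.contDiff.contDiffAt).comp (e x)
      (((det_analyticAt he he' hx hx').contDiffAt (n := n)).restrict_scalars ℝ)
  refine h2.smul (h4.smul (ContDiffAt.comp (g := loc2 κ e' b) (e x) ?_ h3))
  simpa only [e.left_inv hx] using h

theorem Reg0.contDiffAt {n : WithTop ℕ∞} {κ : ℤ} {s : X → V} (h : Reg0 n κ s) {e : Ch X}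
    (he : e ∈ atlas C2 X) {z : C2} (hz : z ∈ e.target) : ContDiffAt ℝ n (loc0 κ e s) z :=
  (h e he).contDiffAt (e.open_target.mem_nhds hz)

theorem Reg1.contDiffAt {n : WithTop ℕ∞} {κ : ℤ} {a : X → Fin 2 → V} (h : Reg1 n κ a) {e : Ch X}
    (he : e ∈ atlas C2 X) {z : C2} (hz : z ∈ e.target) : ContDiffAt ℝ n (loc1 κ e a) z :=
  (h e he).contDiffAt (e.open_target.mem_nhds hz)

theorem Reg2.contDiffAt {n : WithTop ℕ∞} {κ : ℤ} {b : X → V} (h : Reg2 n κ b) {e : Ch X}
    (he : e ∈ atlas C2 X) {z : C2} (hz : z ∈ e.target) : ContDiffAt ℝ n (loc2 κ e b) z :=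
  (h e he).contDiffAt (e.open_target.mem_nhds hz)

/-- regularity may be tested in the preferred charts only -/
theorem reg0_iff {n : WithTop ℕ∞} {κ : ℤ} {s : X → V} :
    Reg0 n κ s ↔ ∀ x, ContDiffAt ℝ n (loc0 κ (chartAt C2 x) s) (chartAt C2 x x) := by
  refine ⟨fun h x => h.contDiffAt (chart_mem_atlas C2 x) (mem_chart_target C2 x), fun h e he => ?_⟩
  intro z hz
  refine ContDiffAt.contDiffWithinAt ?_
  have := loc0_contDiffAt_change he (chart_mem_atlas C2 (e.symm z)) (e.map_target hz)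
    (mem_chart_source C2 (e.symm z)) (h (e.symm z))
  rwa [e.right_inv hz] at this

theorem reg1_iff {n : WithTop ℕ∞} {κ : ℤ} {a : X → Fin 2 → V} :
    Reg1 n κ a ↔ ∀ x, ContDiffAt ℝ n (loc1 κ (chartAt C2 x) a) (chartAt C2 x x) := by
  refine ⟨fun h x => h.contDiffAt (chart_mem_atlas C2 x) (mem_chart_target C2 x), fun h e he => ?_⟩
  intro z hz
  refine ContDiffAt.contDiffWithinAt ?_
  have := loc1_contDiffAt_change he (chart_mem_atlas C2 (e.symm z)) (e.map_target hz)
    (mem_chart_source C2 (e.symm z)) (h (e.symm z))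
  rwa [e.right_inv hz] at this

theorem reg2_iff {n : WithTop ℕ∞} {κ : ℤ} {b : X → V} :
    Reg2 n κ b ↔ ∀ x, ContDiffAt ℝ n (loc2 κ (chartAt C2 x) b) (chartAt C2 x x) := by
  refine ⟨fun h x => h.contDiffAt (chart_mem_atlas C2 x) (mem_chart_target C2 x), fun h e he => ?_⟩
  intro z hz
  refine ContDiffAt.contDiffWithinAt ?_
  have := loc2_contDiffAt_change he (chart_mem_atlas C2 (e.symm z)) (e.map_target hz)
    (mem_chart_source C2 (e.symm z)) (h (e.symm z))
  rwa [e.right_inv hz] at this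

/-! ### `∂̄` in charts -/

/-- `∂̄` in degree `0`, in an arbitrary chart -/
theorem loc1_dbar0 {κ : ℤ} {e : Ch X} (he : e ∈ atlas C2 X) {z : C2} (hz : z ∈ e.target)
    {s : X → V} (h : DifferentiableAt ℝ (loc0 κ e s) z) (i : Fin 2) :
    loc1 κ e (dbar0 κ s) z i = dzb i (loc0 κ e s) z := by
  obtain ⟨x, hx, rfl⟩ : ∃ x ∈ e.source, e x = z := ⟨e.symm z, e.map_target hz, e.right_inv hz⟩
  set e' := chartAt C2 x with he'd
  have he' : e' ∈ atlas C2 X := chart_mem_atlas C2 x
  have hx' : x ∈ e'.source := mem_chart_source C2 x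
  -- differentiability in `e'`
  have hd' : DifferentiableAt ℝ (loc0 κ e' s) (e' x) := by
    have h1 : loc0 κ e' s =ᶠ[𝓝 (e' x)] fun z => (jacM e' e (e'.symm z)).det ^ κ •
        loc0 κ e s (e (e'.symm z)) := by
      filter_upwards [(isOpen_trans e' e).mem_nhds (mem_trans hx' hx)] with z hz
      have := loc0_change (κ := κ) he' he (e'.map_target hz.1) hz.2 s
      rwa [e'.right_inv hz.1] at this
    refine DifferentiableAt.congr_of_eventuallyEq ?_ h1
    have h2 : DifferentiableAt ℝ (fun z => (jacM e' e (e'.symm z)).det ^ κ) (e' x) :=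
      (detz_analyticAt he' he hx' hx κ).differentiableAt.restrictScalars ℝ
    have h3 : DifferentiableAt ℝ (fun z => e (e'.symm z)) (e' x) :=
      (trans_differentiableAt he' he hx' hx).restrictScalars ℝ
    refine h2.smul (DifferentiableAt.comp (g := loc0 κ e s) (e' x) ?_ h3)
    simpa only [e'.left_inv hx'] using h
  have h1 : loc0 κ e s =ᶠ[𝓝 (e x)] fun z => (jacM e e' (e.symm z)).det ^ κ •
      loc0 κ e' s (e' (e.symm z)) := by
    filter_upwards [(isOpen_trans e e').mem_nhds (mem_trans hx hx')] with z hz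
    have := loc0_change (κ := κ) he he' (e.map_target hz.1) hz.2 s
    rwa [e.right_inv hz.1] at this
  have h2 : DifferentiableAt ℂ (fun z => (jacM e e' (e.symm z)).det ^ κ) (e x) :=
    (detz_analyticAt he he' hx hx' κ).differentiableAt
  have h3 := trans_differentiableAt he he' hx hx'
  have hd'' : DifferentiableAt ℝ (loc0 κ e' s) ((fun z => e' (e.symm z)) (e x)) := by
    simpa only [e.left_inv hx] using hd'
  have h4 : DifferentiableAt ℝ (fun z => loc0 κ e' s (e' (e.symm z))) (e x) :=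
    DifferentiableAt.comp (g := loc0 κ e' s) (e x) hd'' (h3.restrictScalars ℝ)
  rw [dzb_congr h1, dzb_smul (h2.restrictScalars ℝ) h4, dzb_of_hol h2, zero_smul, add_zero,
    dzb_comp hd'' h3, loc1_source hx, e.left_inv hx]
  rfl

/-- `∂̄` in degree `1`, in an arbitrary chart -/
theorem loc2_dbar1 {κ : ℤ} {e : Ch X} (he : e ∈ atlas C2 X) {z : C2} (hz : z ∈ e.target)
    {a : X → Fin 2 → V} (h : DifferentiableAt ℝ (loc1 κ e a) z) :
    loc2 κ e (dbar1 κ a) z = dzb 0 (fun y => loc1 κ e a y 1) z -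
      dzb 1 (fun y => loc1 κ e a y 0) z := by
  obtain ⟨x, hx, rfl⟩ : ∃ x ∈ e.source, e x = z := ⟨e.symm z, e.map_target hz, e.right_inv hz⟩
  set e' := chartAt C2 x with he'd
  have he' : e' ∈ atlas C2 X := chart_mem_atlas C2 x
  have hx' : x ∈ e'.source := mem_chart_source C2 x
  have hp : ∀ p, DifferentiableAt ℝ (fun y => loc1 κ e a y p) (e x) := fun p =>
    differentiableAt_pi.1 h p
  -- differentiability in `e'`
  have hd' : ∀ i, DifferentiableAt ℝ (fun y => loc1 κ e' a y i) (e' x) := by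
    intro i
    have h1 : (fun z => loc1 κ e' a z i) =ᶠ[𝓝 (e' x)] fun z => (jacM e' e (e'.symm z)).det ^ κ •
        ∑ p, conj (jacM e' e (e'.symm z) p i) • loc1 κ e a (e (e'.symm z)) p := by
      filter_upwards [(isOpen_trans e' e).mem_nhds (mem_trans hx' hx)] with z hz
      have := loc1_change (κ := κ) he' he (e'.map_target hz.1) hz.2 a i
      rwa [e'.right_inv hz.1] at this
    refine DifferentiableAt.congr_of_eventuallyEq ?_ h1
    have h2 : DifferentiableAt ℝ (fun z => (jacM e' e (e'.symm z)).det ^ κ) (e' x) :=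
      (detz_analyticAt he' he hx' hx κ).differentiableAt.restrictScalars ℝ
    have h3 : DifferentiableAt ℝ (fun z => e (e'.symm z)) (e' x) :=
      (trans_differentiableAt he' he hx' hx).restrictScalars ℝ
    refine h2.smul (DifferentiableAt.fun_sum fun p _ => ?_)
    refine (differentiableAt_conj
      ((jacM_analyticAt he' he hx' hx p i).differentiableAt.restrictScalars ℝ)).smul ?_
    refine DifferentiableAt.comp (g := fun w => loc1 κ e a w p) (e' x) ?_ h3
    simpa only [e'.left_inv hx'] using hp p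
  have h3 := trans_differentiableAt he he' hx hx'
  have hd'' : ∀ p, DifferentiableAt ℝ (fun y => loc1 κ e' a y p) ((fun z => e' (e.symm z)) (e x)) := by
    intro p
    simpa only [e.left_inv hx] using hd' p
  have h4 : ∀ p, DifferentiableAt ℝ (fun z => loc1 κ e' a (e' (e.symm z)) p) (e x) := fun p =>
    DifferentiableAt.comp (g := fun w => loc1 κ e' a w p) (e x) (hd'' p) (h3.restrictScalars ℝ)
  have h2 : DifferentiableAt ℂ (fun z => (jacM e e' (e.symm z)).det ^ κ) (e x) :=
    (detz_analyticAt he he' hx hx' κ).differentiableAt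
  have hJ : ∀ p i, DifferentiableAt ℂ (fun z => jacM e e' (e.symm z) p i) (e x) := fun p i =>
    (jacM_analyticAt he he' hx hx' p i).differentiableAt
  have hJc : ∀ p i, DifferentiableAt ℝ (fun z => conj (jacM e e' (e.symm z) p i)) (e x) :=
    fun p i => differentiableAt_conj ((hJ p i).restrictScalars ℝ)
  -- the derivatives of the components
  have key : ∀ i j, dzb j (fun y => loc1 κ e a y i) (e x) = (jacM e e' x).det ^ κ •
      ∑ p, (conj (jacM e e' x p i) • (∑ q, conj (jacM e e' x q j) •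
          dzb q (fun y => loc1 κ e' a y p) (e' x)) +
        conj (dz j (fun z => jacM e e' (e.symm z) p i) (e x)) • loc1 κ e' a (e' x) p) := by
    intro i j
    have h1 : (fun z => loc1 κ e a z i) =ᶠ[𝓝 (e x)] fun z => (jacM e e' (e.symm z)).det ^ κ •
        ∑ p, conj (jacM e e' (e.symm z) p i) • loc1 κ e' a (e' (e.symm z)) p := by
      filter_upwards [(isOpen_trans e e').mem_nhds (mem_trans hx hx')] with z hz
      have := loc1_change (κ := κ) he he' (e.map_target hz.1) hz.2 a i
      rwa [e.right_inv hz.1] at this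
    have h5 : ∀ p ∈ Finset.univ, DifferentiableAt ℝ (fun z => conj (jacM e e' (e.symm z) p i) •
        loc1 κ e' a (e' (e.symm z)) p) (e x) := fun p _ => (hJc p i).smul (h4 p)
    rw [dzb_congr h1, dzb_smul (h2.restrictScalars ℝ) (DifferentiableAt.fun_sum h5),
      dzb_of_hol h2, zero_smul, add_zero, dzb_sum _ h5, e.left_inv hx]
    congr 1
    refine Finset.sum_congr rfl fun p _ => ?_
    rw [dzb_smul (hJc p i) (h4 p), dzb_comp (hd'' p) h3, dzb_conj ((hJ p i).restrictScalars ℝ)]
    simp only [e.left_inv hx]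
    rfl
  -- mixed second derivatives of the transition map
  have hsymm : ∀ p, dz 0 (fun z => jacM e e' (e.symm z) p 1) (e x) =
      dz 1 (fun z => jacM e e' (e.symm z) p 0) (e x) := by
    intro p
    rw [dz_congr (jacM_eventually hx p 1), dz_congr (jacM_eventually hx p 0)]
    refine dz_dz_comm ?_ 0 1
    exact ((comp_analyticAt (trans_analyticAt he he' hx hx') p).contDiffAt).restrict_scalars ℝ
  rw [key, key, loc2_source hx]
  simp only [hsymm, Fin.sum_univ_two, dbar1]
  change (jacM e e' x).det ^ κ • conj (jacM e e' x).det • _ = _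
  rw [Matrix.det_fin_two]
  simp only [map_sub, map_mul]
  module

end loc

end Vale.Agent.P267.FL
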