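import Mathlib

/-!
# P267, forms layer (A): complex exterior algebra of the complex covectors of a real space

`La E` is the exterior algebra over `ℂ` of `E →L[ℝ] ℂ`, with a norm making it a normed algebra.
(Port of P231.Fm.Ext to complex coefficients; helper399.)
-/

set_option linter.unusedSectionVars false

open Module

namespace Vale.Agent.P267.H399

section Defs

variable (E : Type*) [NormedAddCommGroup E] [NormedSpace ℝ E]

/-- Constant coefficient complex differential forms on `E` (of mixed degree). -/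
def La : Type _ := ExteriorAlgebra ℂ (E →L[ℝ] ℂ)

noncomputable instance : Ring (La E) := inferInstanceAs (Ring (ExteriorAlgebra ℂ (E →L[ℝ] ℂ)))

noncomputable instance : Algebra ℂ (La E) :=
  inferInstanceAs (Algebra ℂ (ExteriorAlgebra ℂ (E →L[ℝ] ℂ)))

instance : Nontrivial (La E) := inferInstanceAs (Nontrivial (ExteriorAlgebra ℂ (E →L[ℝ] ℂ)))

end Defs

variable {E : Type*} [NormedAddCommGroup E] [NormedSpace ℝ E]
variable {F : Type*} [NormedAddCommGroup F] [NormedSpace ℝ F]
variable {G : Type*} [NormedAddCommGroup G] [NormedSpace ℝ G]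

/-- the degree one element attached to a complex covector -/
noncomputable def dxl : (E →L[ℝ] ℂ) →ₗ[ℂ] La E := ExteriorAlgebra.ι ℂ

theorem dxl_mul_self (a : E →L[ℝ] ℂ) : dxl a * dxl a = 0 := ExteriorAlgebra.ι_sq_zero a

theorem dxl_anticomm (a b : E →L[ℝ] ℂ) : dxl a * dxl b = -(dxl b * dxl a) :=
  eq_neg_of_add_eq_zero_left (ExteriorAlgebra.ι_add_mul_swap a b)

theorem La.induction {C : La E → Prop} (h1 : ∀ r : ℂ, C (algebraMap ℂ (La E) r))
    (h2 : ∀ a : E →L[ℝ] ℂ, C (dxl a)) (h3 : ∀ a b, C a → C b → C (a * b))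
    (h4 : ∀ a b, C a → C b → C (a + b)) (w : La E) : C w :=
  ExteriorAlgebra.induction (C := C) h1 h2 h3 h4 w

/-- universal property -/
noncomputable def La.lift {A : Type*} [Ring A] [Algebra ℂ A] (f : (E →L[ℝ] ℂ) →ₗ[ℂ] A)
    (hf : ∀ a, f a * f a = 0) : La E →ₐ[ℂ] A :=
  ExteriorAlgebra.lift ℂ ⟨f, hf⟩

@[simp] theorem La.lift_dxl {A : Type*} [Ring A] [Algebra ℂ A] (f : (E →L[ℝ] ℂ) →ₗ[ℂ] A)
    (hf : ∀ a, f a * f a = 0) (a : E →L[ℝ] ℂ) : La.lift f hf (dxl a) = f a :=
  ExteriorAlgebra.lift_ι_apply ℂ f hf a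

theorem La.algHom_ext {A : Type*} [Ring A] [Algebra ℂ A] {f g : La E →ₐ[ℂ] A}
    (h : ∀ a, f (dxl a) = g (dxl a)) : f = g := by
  refine AlgHom.ext fun w => ?_
  induction w using La.induction with
  | h1 r => rw [AlgHom.commutes, AlgHom.commutes]
  | h2 a => exact h a
  | h3 a b ha hb => rw [map_mul, map_mul, ha, hb]
  | h4 a b ha hb => rw [map_add, map_add, ha, hb]

/-- the algebra endomorphism induced by a linear map of covectors -/
noncomputable def lmap (T : (F →L[ℝ] ℂ) →ₗ[ℂ] (E →L[ℝ] ℂ)) : La F →ₐ[ℂ] La E :=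
  La.lift (dxl.comp T) fun a => by simp [dxl_mul_self]

@[simp] theorem lmap_dxl (T : (F →L[ℝ] ℂ) →ₗ[ℂ] (E →L[ℝ] ℂ)) (a : F →L[ℝ] ℂ) :
    lmap T (dxl a) = dxl (T a) := by
  simp [lmap]

/-- the grade involution -/
noncomputable def inv : La E →ₐ[ℂ] La E :=
  La.lift (-dxl) fun a => by simp [dxl_mul_self]

@[simp] theorem inv_dxl (a : E →L[ℝ] ℂ) : inv (dxl a) = -dxl a := by
  simp [inv]

@[simp] theorem inv_inv (w : La E) : inv (inv w) = w := by
  have h : (inv.comp inv : La E →ₐ[ℂ] La E) = AlgHom.id ℂ (La E) :=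
    La.algHom_ext fun a => by simp
  exact DFunLike.congr_fun h w

theorem dxl_mul (a : E →L[ℝ] ℂ) (w : La E) : dxl a * w = inv w * dxl a := by
  induction w using La.induction with
  | h1 r => rw [AlgHom.commutes]; exact (Algebra.commutes r _).symm
  | h2 b => rw [inv_dxl, neg_mul, dxl_anticomm]
  | h3 v w hv hw => rw [← mul_assoc, hv, mul_assoc, hw, map_mul, mul_assoc]
  | h4 v w hv hw => rw [mul_add, hv, hw, map_add, add_mul]

/-- precomposition of covectors with a real linear map -/
noncomputable def preL (L : E →L[ℝ] F) : (F →L[ℝ] ℂ) →ₗ[ℂ] (E →L[ℝ] ℂ) where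
  toFun a := a.comp L
  map_add' a b := by ext; rfl
  map_smul' c a := by ext; rfl

@[simp] theorem preL_apply (L : E →L[ℝ] F) (a : F →L[ℝ] ℂ) : preL L a = a.comp L := rfl

/-- pullback of constant forms along a real linear map -/
noncomputable def pull (L : E →L[ℝ] F) : La F →ₐ[ℂ] La E := lmap (preL L)

@[simp] theorem pull_dxl (L : E →L[ℝ] F) (a : F →L[ℝ] ℂ) : pull L (dxl a) = dxl (a.comp L) := by
  simp [pull]

@[simp] theorem pull_id : pull (ContinuousLinearMap.id ℝ E) = AlgHom.id ℂ (La E) :=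
  La.algHom_ext fun a => by simp

theorem pull_comp (L : E →L[ℝ] F) (L' : F →L[ℝ] G) :
    pull (L'.comp L) = (pull L).comp (pull L') :=
  La.algHom_ext fun a => by simp [ContinuousLinearMap.comp_assoc]

theorem pull_comp_apply (L : E →L[ℝ] F) (L' : F →L[ℝ] G) (w : La G) :
    pull (L'.comp L) w = pull L (pull L' w) := by rw [pull_comp]; rfl

theorem pull_inv (L : E →L[ℝ] F) (w : La F) : pull L (inv w) = inv (pull L w) := by
  have h : (pull L).comp inv = (inv : La E →ₐ[ℂ] La E).comp (pull L) :=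
    La.algHom_ext fun a => by simp
  exact DFunLike.congr_fun h w

section FD

variable [FiniteDimensional ℝ E] [FiniteDimensional ℝ F]

instance : FiniteDimensional ℂ (E →L[ℝ] ℂ) := Module.Finite.right ℝ ℂ _

instance : FiniteDimensional ℂ (La E) := by
  let b := (Module.finBasis ℂ (E →L[ℝ] ℂ)).ExteriorAlgebra
  exact Module.Finite.of_basis (b : Basis _ ℂ (ExteriorAlgebra ℂ (E →L[ℝ] ℂ)))

/-- a coordinate space for `La E` -/
abbrev LaCoord (E : Type*) [NormedAddCommGroup E] [NormedSpace ℝ E] [FiniteDimensional ℝ E] :=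
  Fin (Module.finrank ℂ (La E)) → ℂ

/-- coordinates -/
noncomputable def laEquiv : La E ≃ₗ[ℂ] LaCoord E := (Module.finBasis ℂ (La E)).equivFun

/-- left multiplication in coordinates -/
noncomputable def lmulHom : La E →ₐ[ℂ] (LaCoord E →L[ℂ] LaCoord E) where
  toFun w := LinearMap.toContinuousLinearMap
    ((laEquiv.toLinearMap ∘ₗ LinearMap.mulLeft ℂ w) ∘ₗ (laEquiv (E := E)).symm.toLinearMap)
  map_one' := by
    ext x
    simp
  map_mul' v w := by
    ext x
    simp
  map_zero' := by
    ext x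
    simp
  map_add' v w := by
    ext x
    simp [add_mul]
  commutes' r := by
    ext x
    simp [Algebra.algebraMap_eq_smul_one]

theorem lmulHom_injective : Function.Injective (lmulHom : La E → _) := by
  intro v w h
  have h1 := DFunLike.congr_fun h (laEquiv (1 : La E))
  simpa [lmulHom] using h1

noncomputable instance : NormedRing (La E) :=
  NormedRing.induced (La E) (LaCoord E →L[ℂ] LaCoord E) (lmulHom : La E →ₐ[ℂ] _).toRingHom
    lmulHom_injective

noncomputable instance : NormedAlgebra ℂ (La E) :=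
  NormedAlgebra.induced ℂ (La E) (LaCoord E →L[ℂ] LaCoord E) (lmulHom : La E →ₐ[ℂ] _)

/-- `dxl` as a continuous linear map -/
noncomputable def dx : (E →L[ℝ] ℂ) →L[ℂ] La E := LinearMap.toContinuousLinearMap dxl

theorem dx_eq (a : E →L[ℝ] ℂ) : dx a = dxl a := rfl

theorem dx_mul_self (a : E →L[ℝ] ℂ) : dx a * dx a = 0 := dxl_mul_self a

theorem dx_anticomm (a b : E →L[ℝ] ℂ) : dx a * dx b = -(dx b * dx a) := dxl_anticomm a b

theorem dx_mul (a : E →L[ℝ] ℂ) (w : La E) : dx a * w = inv w * dx a := dxl_mul a w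

@[simp] theorem inv_dx (a : E →L[ℝ] ℂ) : inv (dx a) = -dx a := inv_dxl a

@[simp] theorem lmap_dx (T : (F →L[ℝ] ℂ) →ₗ[ℂ] (E →L[ℝ] ℂ)) (a : F →L[ℝ] ℂ) :
    lmap T (dx a) = dx (T a) := lmap_dxl T a

@[simp] theorem pull_dx (L : E →L[ℝ] F) (a : F →L[ℝ] ℂ) : pull L (dx a) = dx (a.comp L) :=
  pull_dxl L a

theorem La.ind {C : La E → Prop} (h1 : ∀ r : ℂ, C (algebraMap ℂ (La E) r))
    (h2 : ∀ a : E →L[ℝ] ℂ, C (dx a)) (h3 : ∀ a b, C a → C b → C (a * b))
    (h4 : ∀ a b, C a → C b → C (a + b)) (w : La E) : C w :=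
  La.induction h1 h2 h3 h4 w

/-- even elements are central -/
theorem mul_comm_of_even {v : La E} (hv : inv v = v) (w : La E) : v * w = w * v := by
  induction w using La.ind with
  | h1 r => exact (Algebra.commutes r v).symm
  | h2 a => rw [dx_mul, hv]
  | h3 a b ha hb => rw [← mul_assoc, ha, mul_assoc, hb, mul_assoc]
  | h4 a b ha hb => rw [mul_add, add_mul, ha, hb]

/-- odd elements commute up to the grade involution -/
theorem mul_of_odd {v : La E} (hv : inv v = -v) (w : La E) : v * w = inv w * v := by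
  induction w using La.ind with
  | h1 r => rw [AlgHom.commutes]; exact (Algebra.commutes r v).symm
  | h2 a => rw [inv_dx, neg_mul, dx_mul, hv, neg_mul, neg_neg]
  | h3 a b ha hb => rw [← mul_assoc, ha, mul_assoc, hb, map_mul, mul_assoc]
  | h4 a b ha hb => rw [mul_add, map_add, add_mul, ha, hb]

theorem mul_self_of_odd {v : La E} (hv : inv v = -v) : v * v = 0 := by
  have h := mul_of_odd hv v
  rw [hv, neg_mul] at h
  have h2 : (2 : ℂ) • (v * v) = 0 := by
    rw [two_smul]
    nth_rewrite 1 [h]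
    exact neg_add_cancel _
  exact (smul_eq_zero.1 h2).resolve_left two_ne_zero

/-- a complex linear self map of forms, as a real continuous linear map -/
noncomputable def toR {V W : Type*} [NormedAddCommGroup V] [NormedSpace ℂ V]
    [FiniteDimensional ℂ V] [NormedAddCommGroup W] [NormedSpace ℂ W] (f : V →ₗ[ℂ] W) :
    V →L[ℝ] W := (LinearMap.toContinuousLinearMap f).restrictScalars ℝ

@[simp] theorem toR_apply {V W : Type*} [NormedAddCommGroup V] [NormedSpace ℂ V]
    [FiniteDimensional ℂ V] [NormedAddCommGroup W] [NormedSpace ℂ W] (f : V →ₗ[ℂ] W) (v : V) :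
    toR f v = f v := rfl

/-- pullback as a continuous linear map -/
noncomputable def pullL (L : E →L[ℝ] F) : La F →L[ℝ] La E := toR (pull L).toLinearMap

@[simp] theorem pullL_apply (L : E →L[ℝ] F) (w : La F) : pullL L w = pull L w := rfl

theorem contDiff_pull (w : La F) {n : WithTop ℕ∞} :
    ContDiff ℝ n (fun L : E →L[ℝ] F => pull L w) := by
  induction w using La.ind with
  | h1 r => simpa only [AlgHom.commutes] using contDiff_const
  | h2 a =>
    simp only [pull_dx]
    exact ((dx.restrictScalars ℝ).comp (ContinuousLinearMap.compL ℝ E F ℂ a)).contDiff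
  | h3 a b ha hb => simpa only [map_mul] using ha.mul hb
  | h4 a b ha hb => simpa only [map_add] using ha.add hb

theorem contDiff_pullL {n : WithTop ℕ∞} : ContDiff ℝ n (fun L : E →L[ℝ] F => pullL L) := by
  have : FiniteDimensional ℝ (La F) := Module.Finite.trans ℂ _
  exact contDiff_clm_apply_iff.2 fun w => contDiff_pull w

/-- the grade involution as a continuous linear map -/
noncomputable def invL : La E →L[ℝ] La E := toR inv.toLinearMap

@[simp] theorem invL_apply (w : La E) : invL w = inv w := rfl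

end FD

end Vale.Agent.P267.H399
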